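import Crest.Agent.R171.Defs

/-!
# R171: from cocycles to Mathlib's group homology

Recipe.  For a group `G` let `C n = (Fin n → G) →₀ ℤ`, `d n = inhomogeneousChains.d (trivial) n`,
`[a|b|c] = single ![a,b,c] 1`.  From `inhomogeneousChains.d_single` (`Fin.sum_univ_succ`,
`Fin.contractNth` evaluated by `funext`/`fin_cases`):
`d 3 [a|b|c|e] = [b|c|e] - [ab|c|e] + [a|bc|e] - [a|b|ce] + [a|b|c]` and
`d 2 [a|b|c] = [b|c] - [ab|c] + [a|bc] - [a|b]`.
`z a b c = alt3 (fun a b c => [a|b|c]) a b c` is a cycle when `a, b, c` commute pairwise; let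
`ξ = π (cyclesMk 3 2 _ (z a b c) _)`.
* A cycle class vanishes iff the cycle is in the range of `d 3`
  (`ShortComplex.moduleCat_exact...`/`HomologicalComplex.homologyπ`: e.g. exactness of
  `toCycles`, `homologyπ` from `homologyIsCokernel`, `ModuleCat`; `iCycles` is injective).
* `groupHomology.map φ ψ 3 ξ = π (cycle z (φ a) (φ b) (φ c))` (`groupHomology.π_map`,
  `cyclesMap`, `chainsMap_f_single`), and `z (φ a) (φ b) (φ c)` is a boundary by `hvan` for
  `M = C 3 ⧸ range (d 3)`, `f a b c = mk [a|b|c]`.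
* If `ξ = 0`, `z a b c = d 3 w`; take `S` = all entries of the tuples in the support of `w`,
  `f` from `hdet`, and the additive map `Φ : C 3 →+ B`, `[a|b|c] ↦ f a b c`
  (`Finsupp.liftAddHom` / `Finsupp.lsum`); `Φ (d 3 w) = ∑ w g • cob3 f .. = 0` but
  `Φ (z a b c) = alt3 f a b c ≠ 0`.
-/

noncomputable section

namespace Crest.Agent.R171

open CategoryTheory groupHomology

theorem Bridge_pi_eq_zero_iff (K : ChainComplex (ModuleCat ℤ) ℕ) (x : K.cycles 3) :
    (K.homologyπ 3).hom x = 0 ↔ ∃ w : K.X 4, (K.d 4 3).hom w = (K.iCycles 3).hom x := by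
  have hi : ∀ w : K.X 4, (K.iCycles 3).hom ((K.toCycles 4 3).hom w) = (K.d 4 3).hom w := by
    intro w
    rw [← ModuleCat.comp_apply, K.toCycles_i]
  constructor
  · intro hx
    have hex := ShortComplex.exact_of_g_is_cokernel
      (ShortComplex.mk (K.toCycles 4 3) (K.homologyπ 3) (K.toCycles_comp_homologyπ 4 3))
      (K.homologyIsCokernel 4 3 (by simp))
    obtain ⟨w, hw⟩ := (ShortComplex.moduleCat_exact_iff _).1 hex x hx
    exact ⟨w, by rw [← hi]; exact congrArg _ hw⟩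
  · rintro ⟨w, hw⟩
    have hinj := (ModuleCat.mono_iff_injective (K.iCycles 3)).1 inferInstance
    have : x = (K.toCycles 4 3).hom w := hinj (by rw [hi, hw])
    rw [this, ← ModuleCat.comp_apply, K.toCycles_comp_homologyπ]
    rfl

/-- the basic 3-chain -/
def Bridge_c3 {G : Type} (a b c : G) : (Fin 3 → G) →₀ ℤ := Finsupp.single ![a, b, c] 1

/-- the basic 2-chain -/
def Bridge_c2 {G : Type} (a b : G) : (Fin 2 → G) →₀ ℤ := Finsupp.single ![a, b] 1

/-- the differential -/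
def Bridge_d (G : Type) [Group G] (n : ℕ) : ((Fin (n + 1) → G) →₀ ℤ) →ₗ[ℤ] ((Fin n → G) →₀ ℤ) :=
  (inhomogeneousChains.d (Rep.trivial ℤ G ℤ) n).hom

theorem Bridge_d_single {G : Type} [Group G] (n : ℕ) (g : Fin (n + 1) → G) :
    Bridge_d G n (Finsupp.single g 1) = Finsupp.single (fun i => g i.succ) 1 +
      ∑ j : Fin (n + 1), (-1 : ℤ) ^ ((j : ℕ) + 1) •
        Finsupp.single (Fin.contractNth j (· * ·) g) (1 : ℤ) :=
  inhomogeneousChains.d_single (A := Rep.trivial ℤ G ℤ) n g (1 : ℤ)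

theorem Bridge_d3 {G : Type} [Group G] (g : Fin 4 → G) :
    Bridge_d G 3 (Finsupp.single g 1) = cob3 Bridge_c3 (g 0) (g 1) (g 2) (g 3) := by
  have e0 : (fun i : Fin 3 => g i.succ) = ![g 1, g 2, g 3] := by
    funext i; fin_cases i <;> rfl
  have e1 : Fin.contractNth (0 : Fin 4) (· * ·) g = ![g 0 * g 1, g 2, g 3] := by
    funext i; fin_cases i <;> rfl
  have e2 : Fin.contractNth (1 : Fin 4) (· * ·) g = ![g 0, g 1 * g 2, g 3] := by
    funext i; fin_cases i <;> rfl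
  have e3 : Fin.contractNth (2 : Fin 4) (· * ·) g = ![g 0, g 1, g 2 * g 3] := by
    funext i; fin_cases i <;> rfl
  have e4 : Fin.contractNth (3 : Fin 4) (· * ·) g = ![g 0, g 1, g 2] := by
    funext i; fin_cases i <;> rfl
  rw [Bridge_d_single, Fin.sum_univ_four, e0, e1, e2, e3, e4]
  simp only [cob3, Bridge_c3]
  norm_num
  abel

theorem Bridge_d2 {G : Type} [Group G] (a b c : G) :
    Bridge_d G 2 (Bridge_c3 a b c) =
      Bridge_c2 b c - Bridge_c2 (a * b) c + Bridge_c2 a (b * c) - Bridge_c2 a b := by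
  have e0 : (fun i : Fin 2 => ![a, b, c] i.succ) = ![b, c] := by
    funext i; fin_cases i <;> rfl
  have e1 : Fin.contractNth (0 : Fin 3) (· * ·) ![a, b, c] = ![a * b, c] := by
    funext i; fin_cases i <;> rfl
  have e2 : Fin.contractNth (1 : Fin 3) (· * ·) ![a, b, c] = ![a, b * c] := by
    funext i; fin_cases i <;> rfl
  have e3 : Fin.contractNth (2 : Fin 3) (· * ·) ![a, b, c] = ![a, b] := by
    funext i; fin_cases i <;> rfl
  rw [Bridge_c3, Bridge_d_single, Fin.sum_univ_three, e0, e1, e2, e3]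
  simp only [Bridge_c2]
  norm_num
  abel

theorem Bridge_cycle {G : Type} [Group G] {a b c : G} (hab : Commute a b) (hac : Commute a c)
    (hbc : Commute b c) : Bridge_d G 2 (alt3 Bridge_c3 a b c) = 0 := by
  simp only [alt3, map_add, map_sub, Bridge_d2, hab.symm.eq, hac.symm.eq, hbc.symm.eq]
  abel

theorem Bridge_boundary {H : Type} [Group H] {a b c : H}
    (hvan : ∀ (M : Type) [AddCommGroup M] (f : H → H → H → M), IsCoc3 f → alt3 f a b c = 0) :
    ∃ w, Bridge_d H 3 w = alt3 Bridge_c3 a b c := by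
  let N := LinearMap.range (Bridge_d H 3)
  have h := hvan _ (fun a b c => N.mkQ (Bridge_c3 a b c)) (fun g0 g1 g2 g3 => by
    have h1 : N.mkQ (Bridge_d H 3 (Finsupp.single ![g0, g1, g2, g3] 1)) = 0 :=
      (Submodule.Quotient.mk_eq_zero N).2 ⟨_, rfl⟩
    rw [Bridge_d3] at h1
    have h2 : N.mkQ (cob3 Bridge_c3 g0 g1 g2 g3) = 0 := h1
    simpa only [cob3, map_add, map_sub] using h2)
  have h2 : N.mkQ (alt3 Bridge_c3 a b c) = 0 := by
    simpa only [alt3, map_add, map_sub] using h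
  exact (Submodule.Quotient.mk_eq_zero N).1 h2

theorem Bridge_not_boundary {G B : Type} [Group G] [AddCommGroup B] {a b c : G}
    (hdet : ∀ S : Finset G, ∃ f : G → G → G → B,
      (∀ g0 ∈ S, ∀ g1 ∈ S, ∀ g2 ∈ S, ∀ g3 ∈ S, cob3 f g0 g1 g2 g3 = 0) ∧ alt3 f a b c ≠ 0)
    (w : (Fin 4 → G) →₀ ℤ) : Bridge_d G 3 w ≠ alt3 Bridge_c3 a b c := by
  classical
  intro hw
  obtain ⟨f, h1, h2⟩ := hdet (w.support.biUnion fun g => Finset.univ.image g)
  let Φ : ((Fin 3 → G) →₀ ℤ) →ₗ[ℤ] B := Finsupp.linearCombination ℤ fun g => f (g 0) (g 1) (g 2)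
  have hΦ : ∀ a b c, Φ (Bridge_c3 a b c) = f a b c := fun a b c => by simp [Φ, Bridge_c3]
  apply h2
  have e1 : alt3 f a b c = Φ (alt3 Bridge_c3 a b c) := by
    simp only [alt3, map_add, map_sub, hΦ]
  rw [e1, ← hw, ← Finsupp.sum_single w, Finsupp.sum, map_sum, map_sum]
  refine Finset.sum_eq_zero fun g hg => ?_
  have hm : ∀ k, g k ∈ w.support.biUnion fun g => Finset.univ.image g := fun k =>
    Finset.mem_biUnion.2 ⟨g, hg, Finset.mem_image_of_mem _ (Finset.mem_univ k)⟩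
  have e2 : Finsupp.single g (w g) = w g • Finsupp.single g (1 : ℤ) := by simp
  have e3 : Φ (cob3 Bridge_c3 (g 0) (g 1) (g 2) (g 3)) = cob3 f (g 0) (g 1) (g 2) (g 3) := by
    simp only [cob3, map_add, map_sub, hΦ]
  rw [e2, map_smul, map_smul, Bridge_d3, e3, h1 _ (hm 0) _ (hm 1) _ (hm 2) _ (hm 3), smul_zero]

theorem not_injective_H3 {G H B : Type} [Group G] [Group H] [AddCommGroup B] (φ : G →* H)
    (ψ : Rep.trivial ℤ G ℤ ⟶ Rep.res φ (Rep.trivial ℤ H ℤ)) (hψ : ∀ n : ℤ, ψ.hom n = n)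
    {a b c : G} (hab : Commute a b) (hac : Commute a c) (hbc : Commute b c)
    (hvan : ∀ (M : Type) [AddCommGroup M] (f : H → H → H → M), IsCoc3 f →
      alt3 f (φ a) (φ b) (φ c) = 0)
    (hdet : ∀ S : Finset G, ∃ f : G → G → G → B,
      (∀ g0 ∈ S, ∀ g1 ∈ S, ∀ g2 ∈ S, ∀ g3 ∈ S, cob3 f g0 g1 g2 g3 = 0) ∧ alt3 f a b c ≠ 0) :
    ¬ Function.Injective (groupHomology.map φ ψ 3).hom := by
  intro hinj
  have hz : (inhomogeneousChains (Rep.trivial ℤ G ℤ)).d 3 2 (alt3 Bridge_c3 a b c) = 0 := by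
    rw [inhomogeneousChains.d_def]
    exact Bridge_cycle hab hac hbc
  let z : cycles (Rep.trivial ℤ G ℤ) 3 := cyclesMk 3 2 (by simp) (alt3 Bridge_c3 a b c) hz
  have hzi : (iCycles (Rep.trivial ℤ G ℤ) 3).hom z = alt3 Bridge_c3 a b c :=
    iCycles_mk (by simp) _ hz
  have h1 : (groupHomology.map φ ψ 3).hom ((groupHomology.π _ 3).hom z) = 0 := by
    rw [← ModuleCat.comp_apply, π_map, ModuleCat.comp_apply]
    refine (Bridge_pi_eq_zero_iff _ _).2 ?_
    obtain ⟨w, hw⟩ := Bridge_boundary hvan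
    refine ⟨w, ?_⟩
    rw [inhomogeneousChains.d_def, ← ModuleCat.comp_apply, HomologicalComplex.cyclesMap_i,
      ModuleCat.comp_apply]
    refine hw.trans ?_
    have hc : ∀ a b c : G, ((chainsMap φ ψ).f 3).hom (Bridge_c3 a b c) =
        Bridge_c3 (φ a) (φ b) (φ c) := by
      intro a b c
      refine (chainsMap_f_single φ ψ 3 ![a, b, c] (1 : ℤ)).trans ?_
      rw [hψ, Bridge_c3]
      congr 1
      funext i; fin_cases i <;> rfl
    refine Eq.trans ?_ (congrArg ((chainsMap φ ψ).f 3).hom hzi).symm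
    let L : ((Fin 3 → G) →₀ ℤ) →ₗ[ℤ] ((Fin 3 → H) →₀ ℤ) := ((chainsMap φ ψ).f 3).hom
    have hL : ∀ a b c : G, L (Bridge_c3 a b c) = Bridge_c3 (φ a) (φ b) (φ c) := hc
    show _ = L (alt3 Bridge_c3 a b c)
    simp only [alt3, map_add, map_sub, hL]
  have h2 : (groupHomology.π _ 3).hom z = 0 := hinj (by rw [h1, map_zero])
  obtain ⟨w, hw⟩ := (Bridge_pi_eq_zero_iff _ _).1 h2
  rw [inhomogeneousChains.d_def] at hw
  exact Bridge_not_boundary hdet w (hw.trans hzi)

end Crest.Agent.R171
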