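import Crest.Agent.R171.Defs

/-! # R171: slant products and the antisymmetrised value of a 3-cocycle -/

noncomputable section

namespace Crest.Agent.R171

set_option linter.unusedSectionVars false

variable {G H M : Type} [Group G] [Group H] [AddCommGroup M]

theorem alt3_swap12 (f : G → G → G → M) (a b c : G) : alt3 f b a c = -alt3 f a b c := by
  unfold alt3; abel

theorem alt3_swap23 (f : G → G → G → M) (a b c : G) : alt3 f a c b = -alt3 f a b c := by
  unfold alt3; abel

theorem alt3_swap13 (f : G → G → G → M) (a b c : G) : alt3 f c b a = -alt3 f a b c := by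
  unfold alt3; abel

theorem alt3_cyc (f : G → G → G → M) (a b c : G) : alt3 f b c a = alt3 f a b c := by
  unfold alt3; abel

theorem alt3_eq_slant (f : G → G → G → M) (a b g : G) :
    alt3 f a b g = slant f g a b - slant f g b a := by
  unfold alt3 slant; abel

theorem IsCoc3.comp {f : G → G → G → M} (hf : IsCoc3 f) (j : H →* G) :
    IsCoc3 (fun a b c => f (j a) (j b) (j c)) := by
  intro a b c d
  have := hf (j a) (j b) (j c) (j d)
  simpa only [cob3, map_mul] using this

theorem alt3_comp (f : G → G → G → M) (j : H →* G) (a b c : H) :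
    alt3 (fun a b c => f (j a) (j b) (j c)) a b c = alt3 f (j a) (j b) (j c) := rfl

theorem slant_cocycle {f : G → G → G → M} (hf : IsCoc3 f) {g a b c : G} (ha : Commute a g)
    (hb : Commute b g) (hc : Commute c g) :
    slant f g b c - slant f g (a * b) c + slant f g a (b * c) - slant f g a b = 0 := by
  have h1 := hf g a b c
  have h2 := hf a g b c
  have h3 := hf a b g c
  have h4 := hf a b c g
  unfold cob3 at h1 h2 h3 h4
  rw [← ha.eq] at h1
  rw [← hb.eq] at h2
  rw [← hc.eq] at h3
  unfold slant
  linear_combination (norm := abel) -h1 + h2 - h3 + h4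

theorem slant_coc2 {f : G → G → G → M} (hf : IsCoc3 f) (j : H →* G) {g : G}
    (hg : ∀ y, Commute (j y) g) : IsCoc2 (fun a b => slant f g (j a) (j b)) := by
  intro a b c
  have := slant_cocycle hf (hg a) (hg b) (hg c)
  simpa only [map_mul] using this

theorem alt3_mul_left {f : G → G → G → M} (hf : IsCoc3 f) {a a' b c : G} (hab : Commute a b)
    (hab' : Commute a' b) (hac : Commute a c) (hac' : Commute a' c) (hbc : Commute b c) :
    alt3 f (a * a') b c = alt3 f a b c + alt3 f a' b c := by
  have h1 := slant_cocycle hf hbc hac hac'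
  have h2 := slant_cocycle hf hac hbc hac'
  have h3 := slant_cocycle hf hac hac' hbc
  rw [← hab.eq] at h1
  rw [← hab'.eq] at h2
  simp only [alt3_eq_slant]
  linear_combination (norm := abel) -h1 + h2 - h3

theorem alt3_mul_mid {f : G → G → G → M} (hf : IsCoc3 f) {a b b' c : G} (hab : Commute a b)
    (hab' : Commute a b') (hac : Commute a c) (hbc : Commute b c) (hbc' : Commute b' c) :
    alt3 f a (b * b') c = alt3 f a b c + alt3 f a b' c := by
  rw [alt3_swap12 f (b * b') a c, alt3_mul_left hf hab.symm hab'.symm hbc hbc' hac,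
    alt3_swap12 f b a c, alt3_swap12 f b' a c]
  abel

theorem alt3_mul_right {f : G → G → G → M} (hf : IsCoc3 f) {a b c c' : G} (hab : Commute a b)
    (hac : Commute a c) (hac' : Commute a c') (hbc : Commute b c) (hbc' : Commute b c') :
    alt3 f a b (c * c') = alt3 f a b c + alt3 f a b c' := by
  rw [alt3_cyc f (c * c') a b, alt3_mul_left hf hac.symm hac'.symm hbc.symm hbc'.symm hab,
    alt3_cyc f c a b, alt3_cyc f c' a b]

theorem alt3_one_left {f : G → G → G → M} (hf : IsCoc3 f) {b c : G} (hbc : Commute b c) :
    alt3 f 1 b c = 0 := by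
  have := alt3_mul_left hf (a := 1) (a' := 1) (Commute.one_left b) (Commute.one_left b)
    (Commute.one_left c) (Commute.one_left c) hbc
  rw [mul_one] at this
  exact left_eq_add.1 this

theorem alt3_inv_left {f : G → G → G → M} (hf : IsCoc3 f) {a b c : G} (hab : Commute a b)
    (hac : Commute a c) (hbc : Commute b c) : alt3 f a⁻¹ b c = -alt3 f a b c := by
  have := alt3_mul_left hf hab hab.inv_left hac hac.inv_left hbc
  rw [mul_inv_cancel, alt3_one_left hf hbc] at this
  exact (neg_eq_of_add_eq_zero_right this.symm).symm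

theorem alt3_inv_mid {f : G → G → G → M} (hf : IsCoc3 f) {a b c : G} (hab : Commute a b)
    (hac : Commute a c) (hbc : Commute b c) : alt3 f a b⁻¹ c = -alt3 f a b c := by
  rw [alt3_swap12 f b⁻¹ a c, alt3_inv_left hf hab.symm hbc hac, alt3_swap12 f b a c]

end Crest.Agent.R171
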