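import Crest.Agent.R176.Torus
import Crest.Prelude.Def_Steinberg

/-!
# Row 171 (S0259): Gersten injectivity fails for `K₃`.  Definitions and overview

Owner: helper47.

Let `A` be the localisation of `ℤ[y,t][w]/(w² - 5 - t y⁵)` at the prime `(w, y)`; put
`u = (w+3)/2`, `R = 1 - u`, `a = t y⁴/(w+1)²`, `b = y`, so `(1 - a b)(1 - u)² = u`.
For units `p, q, r` of a commutative ring let `alpha p`, `beta q`, `gamma r` be the lifts to the
Steinberg group of the diagonal matrices with exponent patterns `(1,1,-1,-1)`, `(1,-1,1,-1)`,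
`(1,-1,-1,1)`; they commute pairwise, so the antisymmetrised bar chain
`∑ sgn σ [gσ1|gσ2|gσ3]` is a 3-cycle `z(p,q,r)`.  We test cycles against 3-cocycles `f`
(`alt3 f g1 g2 g3` is the value of `f` on the cycle).

* `Cocyc`: slant products, additivity of `alt3` on commuting elements.
* `Kervaire`: central extensions of `St V R` split (`|V| ≥ 5`), so 2-cocycles are symmetric on
  commuting pairs.
* `Tor`, `Vanish`: `sym f p q r := alt3 f (alpha p) (beta q) (gamma r)` in `St (Fin 10) R` is
  trilinear and satisfies the Steinberg relation in each pair of slots.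
* `Milnor`: hence `sym f (1-b) (1-a) (1-u) = 0` as soon as `b` is a unit (fraction field).
* `Rep`, `Detect`: the Dennis trace cocycle `Tr((g1 g2 g3)⁻¹ D₀g1 D₁g2 D₂g3)` for three
  derivations `A → B` takes the value `4 det(dlog)` on `z(p,q,r)`.
* `RingDefs`, `RingA`, `RingB`: the ring `A`, and derivations to `B = 𝔽₅(t)[y]/(y⁵)` with
  `4 det = 4 y⁴ ≠ 0`.
* `Bridge`: translation to Mathlib's `groupHomology`.
-/

noncomputable section

namespace Crest.Agent.R171

open Crest.Agent.R176 Crest.Agent.R176.St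

section cocycles
variable {G M : Type} [Group G] [AddCommGroup M]

/-- the coboundary of an inhomogeneous 3-cochain with trivial coefficients -/
def cob3 (f : G → G → G → M) (a b c d : G) : M :=
  f b c d - f (a * b) c d + f a (b * c) d - f a b (c * d) + f a b c

/-- inhomogeneous 3-cocycles with trivial coefficients -/
def IsCoc3 (f : G → G → G → M) : Prop := ∀ a b c d, cob3 f a b c d = 0

/-- inhomogeneous 2-cocycles with trivial coefficients -/
def IsCoc2 (e : G → G → M) : Prop :=
  ∀ a b c, e b c - e (a * b) c + e a (b * c) - e a b = 0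

/-- the value of a 3-cochain on the antisymmetrised chain `∑ sgn σ [gσ1|gσ2|gσ3]` -/
def alt3 (f : G → G → G → M) (a b c : G) : M :=
  f a b c - f a c b - f b a c + f b c a + f c a b - f c b a

/-- the slant product of a 3-cochain with a group element -/
def slant (f : G → G → G → M) (g a b : G) : M := f g a b - f a g b + f a b g

end cocycles

/-- the Steinberg group of the statement -/
abbrev PSt (R : Type) [Ring R] : Type := Crest.AlgebraR.Steinberg.St R

section pst
variable {V W R R' : Type} [Ring R] [Ring R']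

/-- the generators of `PSt R` (with `px i i r = 1`) -/
def px (i j : ℕ) (r : R) : PSt R :=
  if h : i = j then 1 else PresentedGroup.mk _ (Crest.AlgebraR.Steinberg.x i j h r)

theorem px_of_ne {i j : ℕ} (h : i ≠ j) (r : R) :
    px i j r = PresentedGroup.of (rels := Crest.AlgebraR.Steinberg.rels R) (⟨(i, j), h⟩, r) := by
  rw [px, dif_neg h]; rfl

theorem px_add {i j : ℕ} (h : i ≠ j) (r s : R) : px i j (r + s) = px i j r * px i j s := by
  have h1 := PresentedGroup.one_of_mem (rels := Crest.AlgebraR.Steinberg.rels R)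
    (Or.inl (Or.inl ⟨i, j, h, r, s, rfl⟩))
  rw [map_mul, map_mul, map_inv, mul_inv_eq_one] at h1
  simp only [px, dif_neg h]
  exact h1.symm

theorem px_commute {i j k l : ℕ} (hij : i ≠ j) (hkl : k ≠ l) (hjk : j ≠ k) (hil : i ≠ l)
    (r s : R) : Commute (px i j r) (px k l s) := by
  have h1 := PresentedGroup.one_of_mem (rels := Crest.AlgebraR.Steinberg.rels R)
    (Or.inl (Or.inr ⟨i, j, k, l, hij, hkl, r, s, hjk, hil, rfl⟩))
  rw [map_mul, map_mul, map_mul, map_inv, map_inv, mul_inv_eq_one, mul_inv_eq_iff_eq_mul] at h1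
  simp only [px, dif_neg hij, dif_neg hkl]
  exact h1

open scoped commutatorElement in
theorem px_comm_mul {i j k : ℕ} (hij : i ≠ j) (hjk : j ≠ k) (hik : i ≠ k) (r s : R) :
    ⁅px i j r, px j k s⁆ = px i k (r * s) := by
  have h1 := PresentedGroup.one_of_mem (rels := Crest.AlgebraR.Steinberg.rels R)
    (Or.inr ⟨i, j, k, hij, hjk, hik, r, s, rfl⟩)
  rw [map_mul, map_mul, map_mul, map_mul, map_inv, map_inv, map_inv, mul_inv_eq_one] at h1
  simp only [px, dif_neg hij, dif_neg hjk, dif_neg hik, commutatorElement_def]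
  exact h1

/-- the map from a Steinberg group on a set of natural numbers to the stable Steinberg group -/
def iota (e : V ↪ ℕ) : St V R →* PSt R :=
  lift (fun i j r => px (e i) (e j) r) (fun i r => by simp [px])
    (fun _ _ r s h => px_add (e.injective.ne h) r s)
    (fun _ _ _ _ r s h1 h2 h3 h4 => px_commute (e.injective.ne h1) (e.injective.ne h2)
      (e.injective.ne h3) (e.injective.ne h4) r s)
    (fun _ _ _ r s h1 h2 h3 => px_comm_mul (e.injective.ne h1) (e.injective.ne h2)
      (e.injective.ne h3) r s)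

@[simp] theorem iota_x (e : V ↪ ℕ) (i j : V) (r : R) : iota e (x i j r) = px (e i) (e j) r :=
  lift_x _ _ _ _ _ _ _ _

theorem iota_relabel (e : V ↪ W) (e' : W ↪ ℕ) (y : St V R) :
    iota e' (relabel e y) = iota (e.trans e') y := by
  have : (iota e').comp (relabel e) = (iota (e.trans e') : St V R →* PSt R) :=
    hom_ext fun i j r _ => by simp
  exact DFunLike.congr_fun this y

theorem stMap_px (φ : R →+* R') (i j : ℕ) (r : R) :
    Crest.AlgebraR.Steinberg.stMap φ (px i j r) = px i j (φ r) := by
  by_cases h : i = j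
  · simp [px, h]
  · simp only [px, dif_neg h]
    rfl

theorem stMap_iota (φ : R →+* R') (e : V ↪ ℕ) (y : St V R) :
    Crest.AlgebraR.Steinberg.stMap φ (iota e y) = iota e (St.map φ y) := by
  have : (Crest.AlgebraR.Steinberg.stMap φ).comp (iota e) =
      ((iota e).comp (St.map φ) : St V R →* PSt R') :=
    hom_ext fun i j r _ => by simp [stMap_px]
  exact DFunLike.congr_fun this y

end pst

section torus
variable {R : Type} [CommRing R]

/-- lift of `diag (a, a, a⁻¹, a⁻¹)` -/
def alpha (a : Rˣ) : St (Fin 4) R := h 0 2 a * h 1 3 a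

/-- lift of `diag (b, b⁻¹, b, b⁻¹)` -/
def beta (b : Rˣ) : St (Fin 4) R := h 0 1 b * h 2 3 b

/-- lift of `diag (c, c⁻¹, c⁻¹, c)` -/
def gamma (c : Rˣ) : St (Fin 4) R := h 0 1 c * h 3 2 c

/-- the first four of ten indices -/
def e4 : Fin 4 ↪ Fin 10 := Fin.castLEEmb (by norm_num)

/-- the symbol tested against a 3-cochain -/
def sym {M : Type} [AddCommGroup M] (f : St (Fin 10) R → St (Fin 10) R → St (Fin 10) R → M)
    (a b c : Rˣ) : M :=
  alt3 f (relabel e4 (alpha a)) (relabel e4 (beta b)) (relabel e4 (gamma c))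

end torus

section dlog
variable {A B : Type} [CommRing A] [CommRing B]

/-- three derivations `A → B` along `ρ` -/
def IsDer (ρ : A →+* B) (D : Fin 3 → A →+ B) : Prop :=
  ∀ i x y, D i (x * y) = D i x * ρ y + ρ x * D i y

/-- logarithmic derivative of a unit -/
def dlog (ρ : A →+* B) (D : Fin 3 → A →+ B) (i : Fin 3) (a : Aˣ) : B :=
  ρ ((a⁻¹ : Aˣ) : A) * D i (a : A)

/-- the determinant of the logarithmic derivatives of three units -/
def ddet (ρ : A →+* B) (D : Fin 3 → A →+ B) (a b c : Aˣ) : B :=
  dlog ρ D 0 a * dlog ρ D 1 b * dlog ρ D 2 c - dlog ρ D 0 a * dlog ρ D 1 c * dlog ρ D 2 b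
    - dlog ρ D 0 b * dlog ρ D 1 a * dlog ρ D 2 c + dlog ρ D 0 b * dlog ρ D 1 c * dlog ρ D 2 a
    + dlog ρ D 0 c * dlog ρ D 1 a * dlog ρ D 2 b - dlog ρ D 0 c * dlog ρ D 1 b * dlog ρ D 2 a

end dlog

end Crest.Agent.R171
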