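import Crest.Agent.R171.Defs

/-! # R171: torus elements of the Steinberg group of a commutative ring -/

noncomputable section

namespace Crest.Agent.R171

open Crest.Agent.R176 Crest.Agent.R176.St

set_option linter.unusedSectionVars false

variable {V W R R' : Type} [CommRing R] [CommRing R'] [Fintype V] [DecidableEq V]
  [Fintype W] [DecidableEq W]

/-- two lifts of the same diagonal matrix differ by a central element -/
theorem isTor_central {t t' : St V R} {d : V → Rˣ} (ht : IsTor t d) (ht' : IsTor t' d) :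
    ∃ z : St V R, (∀ y, Commute z y) ∧ t' = t * z := by
  refine ⟨t⁻¹ * t', fun y => ?_, by group⟩
  have h1 := (ht.1 y).trans (ht'.1 y).symm
  show t⁻¹ * t' * y = y * (t⁻¹ * t')
  calc t⁻¹ * t' * y = t⁻¹ * (t' * y * t'⁻¹) * t' := by group
    _ = t⁻¹ * (t * y * t⁻¹) * t' := by rw [h1]
    _ = y * (t⁻¹ * t') := by group

/-- a torus element whose entries at `i` and `j` agree commutes with `h i j u` -/
theorem isTor_commute_h {t : St V R} {d : V → Rˣ} (ht : IsTor t d) {i j : V} (hd : d i = d j)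
    (u : Rˣ) : Commute t (h i j u) := by
  have h1 : St.dg d (h i j u) = h i j u := by
    rw [h, map_mul, map_inv, dg_w, dg_w, hd, mul_comm (d j) u, mul_comm (d j) 1]
    simp
  have h2 := ht.1 (h i j u)
  rw [h1, mul_inv_eq_iff_eq_mul] at h2
  exact h2

/-- a torus element which is constant on the range of `e` centralises `relabel e` -/
theorem isTor_commute_relabel {t : St V R} {d : V → Rˣ} (ht : IsTor t d) (e : W ↪ V) (c : Rˣ)
    (hd : ∀ k, d (e k) = c) (y : St W R) : Commute (relabel e y) t := by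
  have h1 : (St.dg (d ∘ e) : St W R →* St W R) = MonoidHom.id _ :=
    hom_ext fun i j r _ => by
      simp only [dg_x, Function.comp_apply, hd, MonoidHom.id_apply]
      rw [mul_comm (c : R) r, mul_assoc, Units.mul_inv, mul_one]
  have h2 := ht.1 (relabel e y)
  rw [dg_relabel, h1, MonoidHom.id_apply, mul_inv_eq_iff_eq_mul] at h2
  exact h2.symm

theorem Tor_w_conj (hV : 3 ≤ Fintype.card V) {i j : V} (hij : i ≠ j) (u : Rˣ) (a b : V) (r : R) :
    w i j u * x a b r * (w i j u)⁻¹ =
      x (Equiv.swap i j a) (Equiv.swap i j b) (d2 i j u (-u⁻¹) (Equiv.swap i j a) * r *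
        ((d2 i j u (-u⁻¹) (Equiv.swap i j b))⁻¹ : Rˣ)) := by
  obtain ⟨k, hk⟩ := Torus_exists_third hV i j
  refine conj_monomial {i, j} k hk (w_mem_Ug i j u) (Equiv.swap i j) (d2 i j u (-u⁻¹)) ?_ a b r
  intro a b
  rw [Torus_pm_w hij, Torus_blk_apply hij]
  by_cases h1 : b = i
  · subst h1
    by_cases h2 : a = j
    · subst h2; simp [hij.symm, d2]
    · by_cases h3 : a = b <;> simp [h2, Ne.symm h2, h3, hij, hij.symm]
  · by_cases h1' : b = j
    · subst h1'
      by_cases h2 : a = i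
      · subst h2; simp [h1, d2]
      · by_cases h3 : a = b <;> simp [h1, h2, Ne.symm h2, h3, hij]
    · rw [Equiv.swap_apply_of_ne_of_ne h1 h1']
      by_cases h2 : a = b
      · subst h2; simp [h1, h1', d2]
      · simp [h1, h1', h2, Ne.symm h2]

theorem Tor_w_x_ij (hV : 3 ≤ Fintype.card V) {i j : V} (hij : i ≠ j) (u : Rˣ) (r : R) :
    w i j u * x i j r * (w i j u)⁻¹ = x j i (-(((u⁻¹ : Rˣ) : R) * r * ((u⁻¹ : Rˣ) : R))) := by
  rw [Tor_w_conj hV hij]
  simp [d2, hij.symm]

theorem Tor_w_x_ji (hV : 3 ≤ Fintype.card V) {i j : V} (hij : i ≠ j) (u : Rˣ) (r : R) :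
    w i j u * x j i r * (w i j u)⁻¹ = x i j (-((u : R) * r * u)) := by
  rw [Tor_w_conj hV hij]
  simp [d2, hij.symm]

theorem Tor_w_neg_one (hV : 3 ≤ Fintype.card V) {i j : V} (hij : i ≠ j) :
    (w i j (1 : Rˣ))⁻¹ = x j i (1 : R) * x i j (-1) * x j i 1 := by
  rw [Torus_w_inv]
  have h1 := Tor_w_x_ij hV hij (-1 : Rˣ) (-1 : R)
  have h2 := Tor_w_x_ji hV hij (-1 : Rˣ) (1 : R)
  simp only [inv_neg, inv_one, Units.val_neg, Units.val_one, mul_neg, mul_one, neg_neg] at h1 h2
  have h3 : w i j (-1 : Rˣ) = x i j (-1 : R) * x j i 1 * x i j (-1) := by simp [w]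
  calc w i j (-1 : Rˣ) = w i j (-1 : Rˣ) * w i j (-1 : Rˣ) * (w i j (-1 : Rˣ))⁻¹ := by group
    _ = w i j (-1 : Rˣ) * (x i j (-1 : R) * x j i 1 * x i j (-1)) * (w i j (-1 : Rˣ))⁻¹ := by
        rw [← h3]
    _ = (w i j (-1 : Rˣ) * x i j (-1 : R) * (w i j (-1 : Rˣ))⁻¹) *
          (w i j (-1 : Rˣ) * x j i (1 : R) * (w i j (-1 : Rˣ))⁻¹) *
          (w i j (-1 : Rˣ) * x i j (-1 : R) * (w i j (-1 : Rˣ))⁻¹) := by group
    _ = _ := by rw [h1, h2]

theorem h_mul_of_add (hV : 3 ≤ Fintype.card V) {i j : V} (hij : i ≠ j) {u v : Rˣ}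
    (huv : (u : R) + v = 1) : h i j (u * v) = h i j u * h i j v := by
  have h1 : w i j u * x j i (1 : R) = x i j (-((u : R) * u)) * w i j u := by
    have := Tor_w_x_ji hV hij u (1 : R)
    rw [mul_one, mul_inv_eq_iff_eq_mul] at this
    exact this
  have h2 : x j i (1 : R) * w i j v = w i j v * x i j (-((v : R) * v)) := by
    have := Tor_w_x_ij hV hij v (-((v : R) * v))
    rw [mul_inv_eq_iff_eq_mul] at this
    rw [this]
    congr 2
    have hi : (v : R) * ((v⁻¹ : Rˣ) : R) = 1 := v.mul_inv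
    linear_combination (-1 - (v : R) * ((v⁻¹ : Rˣ) : R)) * hi
  have hu : (u : R) * ((u⁻¹ : Rˣ) : R) = 1 := u.mul_inv
  have hv : (v : R) * ((v⁻¹ : Rˣ) : R) = 1 := v.mul_inv
  have key : w i j u * (w i j (1 : Rˣ))⁻¹ * w i j v = w i j (u * v) := by
    rw [Tor_w_neg_one hV hij]
    calc w i j u * (x j i (1 : R) * x i j (-1) * x j i 1) * w i j v
        = (w i j u * x j i (1 : R)) * x i j (-1) * (x j i 1 * w i j v) := by group
      _ = (x i j (-((u : R) * u)) * x i j (u : R)) * x j i (-((u⁻¹ : Rˣ) : R)) *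
            (x i j (u : R) * x i j (-1) * x i j (v : R)) * x j i (-((v⁻¹ : Rˣ) : R)) *
            (x i j (v : R) * x i j (-((v : R) * v))) := by
          rw [h1, h2, w, w]; group
      _ = x i j ((u : R) * v) * (x j i (-((u⁻¹ : Rˣ) : R)) * x j i (-((v⁻¹ : Rˣ) : R))) *
            x i j ((u : R) * v) := by
          rw [← x_add, ← x_add, ← x_add, ← x_add,
            show (u : R) + -1 + v = 0 by linear_combination huv,
            show -((u : R) * u) + u = u * v by linear_combination (-(u : R)) * huv,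
            show (v : R) + -((v : R) * v) = u * v by linear_combination (-(v : R)) * huv, x_zero]
          group
      _ = w i j (u * v) := by
          rw [← x_add, w, Units.val_mul, mul_inv_rev, Units.val_mul]
          congr 3
          linear_combination ((v⁻¹ : Rˣ) : R) * hu + ((u⁻¹ : Rˣ) : R) * hv -
            ((u⁻¹ : Rˣ) : R) * ((v⁻¹ : Rˣ) : R) * huv
  rw [h, h, h, ← key]
  group

/-- the Steinberg relation -/
theorem h_commute_of_add (hV : 3 ≤ Fintype.card V) {i j : V} (hij : i ≠ j) {u v : Rˣ}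
    (huv : (u : R) + v = 1) : Commute (h i j u) (h i j v) := by
  show h i j u * h i j v = h i j v * h i j u
  rw [← h_mul_of_add hV hij huv, ← h_mul_of_add hV hij ((add_comm _ _).trans huv), mul_comm]

theorem Tor_card (e : Fin 4 ↪ V) : 3 ≤ Fintype.card V := by
  have := Fintype.card_le_of_embedding e
  rw [Fintype.card_fin] at this
  omega

theorem isTor_alpha (e : Fin 4 ↪ V) (a : Rˣ) :
    IsTor (relabel e (alpha a)) (d2 (e 0) (e 2) a a⁻¹ * d2 (e 1) (e 3) a a⁻¹) := by
  rw [alpha, map_mul, relabel_h, relabel_h]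
  exact (isTor_h (Tor_card e) (e.injective.ne (by decide)) a).mul
    (isTor_h (Tor_card e) (e.injective.ne (by decide)) a)

theorem isTor_beta (e : Fin 4 ↪ V) (a : Rˣ) :
    IsTor (relabel e (beta a)) (d2 (e 0) (e 1) a a⁻¹ * d2 (e 2) (e 3) a a⁻¹) := by
  rw [beta, map_mul, relabel_h, relabel_h]
  exact (isTor_h (Tor_card e) (e.injective.ne (by decide)) a).mul
    (isTor_h (Tor_card e) (e.injective.ne (by decide)) a)

theorem isTor_gamma (e : Fin 4 ↪ V) (a : Rˣ) :
    IsTor (relabel e (gamma a)) (d2 (e 0) (e 1) a a⁻¹ * d2 (e 3) (e 2) a a⁻¹) := by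
  rw [gamma, map_mul, relabel_h, relabel_h]
  exact (isTor_h (Tor_card e) (e.injective.ne (by decide)) a).mul
    (isTor_h (Tor_card e) (e.injective.ne (by decide)) a)

theorem isTor_alpha' (a : Rˣ) : IsTor (alpha a) ![a, a, a⁻¹, a⁻¹] := by
  have := isTor_alpha (Function.Embedding.refl (Fin 4)) a
  rw [relabel_refl] at this
  convert this using 1
  funext k
  fin_cases k <;> simp [d2]

theorem isTor_beta' (a : Rˣ) : IsTor (beta a) ![a, a⁻¹, a, a⁻¹] := by
  have := isTor_beta (Function.Embedding.refl (Fin 4)) a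
  rw [relabel_refl] at this
  convert this using 1
  funext k
  fin_cases k <;> simp [d2]

theorem isTor_gamma' (a : Rˣ) : IsTor (gamma a) ![a, a⁻¹, a⁻¹, a] := by
  have := isTor_gamma (Function.Embedding.refl (Fin 4)) a
  rw [relabel_refl] at this
  convert this using 1
  funext k
  fin_cases k <;> simp [d2]

theorem commute_alpha_beta (a b : Rˣ) : Commute (alpha a) (beta b) := by
  rw [beta]
  exact (isTor_commute_h (isTor_alpha' a) (by simp) b).mul_right
    (isTor_commute_h (isTor_alpha' a) (by simp) b)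

theorem commute_alpha_gamma (a c : Rˣ) : Commute (alpha a) (gamma c) := by
  rw [gamma]
  exact (isTor_commute_h (isTor_alpha' a) (by simp) c).mul_right
    (isTor_commute_h (isTor_alpha' a) (by simp) c)

theorem commute_beta_gamma (b c : Rˣ) : Commute (beta b) (gamma c) := by
  have h1 : IsTor (h (0 : Fin 4) 2 c * h 3 1 c) ![c, c⁻¹, c⁻¹, c] := by
    convert (isTor_h (V := Fin 4) (by simp) (i := 0) (j := 2) (by decide) c).mul
      (isTor_h (V := Fin 4) (by simp) (i := 3) (j := 1) (by decide) c) using 1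
    funext k
    fin_cases k <;> simp [d2]
  obtain ⟨z, hz, e⟩ := isTor_central h1 (isTor_gamma' c)
  rw [e]
  exact ((isTor_commute_h (isTor_beta' b) (by simp) c).mul_right
    (isTor_commute_h (isTor_beta' b) (by simp) c)).mul_right (hz _).symm

theorem Tor_d2_mul (i j : V) (a a' : Rˣ) :
    d2 i j (a * a') (a * a')⁻¹ = d2 i j a a⁻¹ * d2 i j a' a'⁻¹ := by
  funext k
  simp only [d2, Pi.mul_apply]
  split_ifs
  · rfl
  · rw [mul_inv]
  · simp

theorem commute_alpha_alpha_mul (a a' : Rˣ) :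
    ∃ z : St (Fin 10) R, (∀ y, Commute z y) ∧
      relabel e4 (alpha (a * a')) = relabel e4 (alpha a) * relabel e4 (alpha a') * z := by
  refine isTor_central ((isTor_alpha e4 a).mul (isTor_alpha e4 a')) ?_
  convert isTor_alpha e4 (a * a') using 1
  rw [Tor_d2_mul, Tor_d2_mul, mul_mul_mul_comm]

theorem commute_beta_beta_mul (a a' : Rˣ) :
    ∃ z : St (Fin 10) R, (∀ y, Commute z y) ∧
      relabel e4 (beta (a * a')) = relabel e4 (beta a) * relabel e4 (beta a') * z := by
  refine isTor_central ((isTor_beta e4 a).mul (isTor_beta e4 a')) ?_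
  convert isTor_beta e4 (a * a') using 1
  rw [Tor_d2_mul, Tor_d2_mul, mul_mul_mul_comm]

theorem commute_gamma_gamma_mul (a a' : Rˣ) :
    ∃ z : St (Fin 10) R, (∀ y, Commute z y) ∧
      relabel e4 (gamma (a * a')) = relabel e4 (gamma a) * relabel e4 (gamma a') * z := by
  refine isTor_central ((isTor_gamma e4 a).mul (isTor_gamma e4 a')) ?_
  convert isTor_gamma e4 (a * a') using 1
  rw [Tor_d2_mul, Tor_d2_mul, mul_mul_mul_comm]

theorem Tor_map_h (φ : R →+* R') (i j : V) (a : Rˣ) :
    St.map φ (h i j a) = h i j (Units.map (φ : R →* R') a) := by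
  simp [h, w]

theorem map_alpha (φ : R →+* R') (a : Rˣ) :
    St.map φ (alpha a) = alpha (Units.map (φ : R →* R') a) := by
  rw [alpha, alpha, map_mul, Tor_map_h, Tor_map_h]

theorem map_beta (φ : R →+* R') (a : Rˣ) :
    St.map φ (beta a) = beta (Units.map (φ : R →* R') a) := by
  rw [beta, beta, map_mul, Tor_map_h, Tor_map_h]

theorem map_gamma (φ : R →+* R') (a : Rˣ) :
    St.map φ (gamma a) = gamma (Units.map (φ : R →* R') a) := by
  rw [gamma, gamma, map_mul, Tor_map_h, Tor_map_h]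

end Crest.Agent.R171
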