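import Crest.Agent.R171.Rep
import Crest.Agent.R171.Tor

/-!
# R171: the Dennis trace cocycle detects the symbol
-/

noncomputable section

namespace Crest.Agent.R171

open Crest.Agent.R176 Crest.Agent.R176.St

/-- The cup product of three crossed homomorphisms followed by a trace is a 3-cocycle.
Recipe: with `P = r (a*b*c*d)⁻¹` one has `r (b*c*d)⁻¹ = P * r a` and
`r (a*b*c)⁻¹ = r d * P`; expand, move `r d` to the right end with `hτ`, cancel. -/
theorem cup_cocycle {G Λ M : Type} [Group G] [Ring Λ] [AddCommGroup M] (τ : Λ →+ M)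
    (hτ : ∀ x y, τ (x * y) = τ (y * x)) (r : G →* Λ) (D : Fin 3 → G → Λ)
    (hD : ∀ i g h, D i (g * h) = D i g * r h + r g * D i h) :
    IsCoc3 (fun a b c : G => τ (r (a * b * c)⁻¹ * D 0 a * D 1 b * D 2 c)) := by
  intro a b c d
  set P := r (a * b * c * d)⁻¹ with hP
  have e1 : r (b * c * d)⁻¹ = P * r a := by rw [hP, ← map_mul]; congr 1; group
  have e2 : r (a * (b * c) * d)⁻¹ = P := by rw [hP]; congr 1; group
  have e3 : r (a * b * (c * d))⁻¹ = P := by rw [hP]; congr 1; group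
  have e4 : r (a * b * c)⁻¹ = r d * P := by rw [hP, ← map_mul]; congr 1; group
  have e5 : τ (r d * P * D 0 a * D 1 b * D 2 c) = τ (P * D 0 a * D 1 b * D 2 c * r d) := by
    rw [← hτ (r d)]; simp only [mul_assoc]
  simp only [cob3]
  rw [e1, e2, e3, e4, e5, ← hP, ← map_sub, ← map_add, ← map_sub, ← map_add, hD, hD, hD]
  rw [← map_zero τ]
  congr 1
  noncomm_ring

variable {A B : Type} [CommRing A] [CommRing B]

/-- the trace cocycle on a finite Steinberg group -/
def trc {V : Type} [Fintype V] [DecidableEq V] (ρ : A →+* B) (D : Fin 3 → A →+ B)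
    (a b c : St V A) : B :=
  Matrix.trace ((pm (a * b * c)⁻¹).map ρ * (pm a).map (D 0) * (pm b).map (D 1) *
    (pm c).map (D 2))

/-- Recipe: `cup_cocycle` with `τ = Matrix.traceAddMonoidHom`, `r = ρ.mapMatrix ∘ pm`,
`D i g = (pm g).map (D i)` (Leibniz rule entrywise: `Matrix.mul_apply`, `map_sum`). -/
theorem trc_coc3 {V : Type} [Fintype V] [DecidableEq V] {ρ : A →+* B} {D : Fin 3 → A →+ B}
    (hD : IsDer ρ D) : IsCoc3 (trc (V := V) ρ D) := by
  refine cup_cocycle (G := St V A) (Matrix.traceAddMonoidHom V B) (fun x y => Matrix.trace_mul_comm x y)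
    (ρ.mapMatrix.toMonoidHom.comp pm) (fun i g => (pm g).map (D i)) fun i g h => ?_
  ext u v
  simp only [map_mul, Matrix.map_apply, Matrix.mul_apply, map_sum, hD i, Matrix.add_apply,
    Finset.sum_add_distrib, MonoidHom.comp_apply, RingHom.toMonoidHom_eq_coe, MonoidHom.coe_coe,
    RingHom.mapMatrix_apply]

/-- Recipe: `IsTor.mul`, `IsTor.inv` give `pm (a*b*c)⁻¹` diagonal; `Matrix.diagonal_map`,
`Matrix.diagonal_mul_diagonal`, `Matrix.trace_diagonal`. -/
theorem trc_tor {V : Type} [Fintype V] [DecidableEq V] {ρ : A →+* B} {D : Fin 3 → A →+ B}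
    {a b c : St V A} {da db dc : V → Aˣ} (ha : IsTor a da) (hb : IsTor b db) (hc : IsTor c dc) :
    trc ρ D a b c = ∑ v, dlog ρ D 0 (da v) * dlog ρ D 1 (db v) * dlog ρ D 2 (dc v) := by
  have h := ((ha.mul hb).mul hc).inv
  rw [trc, h.2, ha.2, hb.2, hc.2, Matrix.diagonal_map (map_zero _), Matrix.diagonal_map (map_zero _),
    Matrix.diagonal_map (map_zero _), Matrix.diagonal_map (map_zero _),
    Matrix.diagonal_mul_diagonal, Matrix.diagonal_mul_diagonal, Matrix.diagonal_mul_diagonal,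
    Matrix.trace_diagonal]
  refine Finset.sum_congr rfl fun v _ => ?_
  simp only [dlog, Pi.inv_apply, Pi.mul_apply, mul_inv, Units.val_mul, map_mul]
  ring

theorem Detect_D_one {ρ : A →+* B} {D : Fin 3 → A →+ B} (hD : IsDer ρ D) (i : Fin 3) :
    D i 1 = 0 := by
  have := hD i 1 1
  simp only [mul_one, map_one, one_mul] at this
  linear_combination -this

theorem Detect_dlog_one {ρ : A →+* B} {D : Fin 3 → A →+ B} (hD : IsDer ρ D) (i : Fin 3) :
    dlog ρ D i 1 = 0 := by
  simp [dlog, Detect_D_one hD]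

theorem Detect_dlog_inv {ρ : A →+* B} {D : Fin 3 → A →+ B} (hD : IsDer ρ D) (i : Fin 3) (a : Aˣ) :
    dlog ρ D i a⁻¹ = -dlog ρ D i a := by
  have h1 := hD i (a : A) ((a⁻¹ : Aˣ) : A)
  rw [a.mul_inv, Detect_D_one hD] at h1
  simp only [dlog, inv_inv]
  linear_combination -h1

/-- Recipe: `D i 1 = 0`, so `dlog _ 1 = 0` and `dlog _ a⁻¹ = - dlog _ a`; the sums of `trc_tor` for
`isTor_alpha/beta/gamma e` are supported on the four indices `e k`
(`Finset.sum_subset` / `Finset.sum_map`, `Fin.sum_univ_four`); the product of the three exponent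
patterns is `1` at each of them. -/
theorem alt3_trc {V : Type} [Fintype V] [DecidableEq V] {ρ : A →+* B} {D : Fin 3 → A →+ B}
    (hD : IsDer ρ D) (e : Fin 4 ↪ V) (a b c : Aˣ) :
    alt3 (trc ρ D) (relabel e (alpha a)) (relabel e (beta b)) (relabel e (gamma c)) =
      4 * ddet ρ D a b c := by
  have ha := isTor_alpha e a
  have hb := isTor_beta e b
  have hc := isTor_gamma e c
  set da := d2 (e 0) (e 2) a a⁻¹ * d2 (e 1) (e 3) a a⁻¹ with hda
  set db := d2 (e 0) (e 1) b b⁻¹ * d2 (e 2) (e 3) b b⁻¹ with hdb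
  set dc := d2 (e 0) (e 1) c c⁻¹ * d2 (e 3) (e 2) c c⁻¹ with hdc
  have h1 : alt3 (trc ρ D) (relabel e (alpha a)) (relabel e (beta b)) (relabel e (gamma c)) =
      ∑ v, ddet ρ D (da v) (db v) (dc v) := by
    rw [alt3, trc_tor ha hb hc, trc_tor ha hc hb, trc_tor hb ha hc, trc_tor hb hc ha,
      trc_tor hc ha hb, trc_tor hc hb ha]
    simp only [ddet, Finset.sum_add_distrib, Finset.sum_sub_distrib]
  rw [h1, ← Finset.sum_subset (Finset.subset_univ (Finset.univ.map e)), Finset.sum_map,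
    Fin.sum_univ_four]
  · simp only [hda, hdb, hdc, d2, Pi.mul_apply, EmbeddingLike.apply_eq_iff_eq]
    simp only [Fin.reduceEq, if_true, if_false, mul_one, one_mul, ddet, Detect_dlog_inv hD]
    ring
  · intro v _ hv
    have h2 : ∀ k, v ≠ e k := fun k hk => hv (Finset.mem_map.2 ⟨k, Finset.mem_univ _, hk.symm⟩)
    have h3 : da v = 1 := by simp [hda, d2, h2]
    simp only [h3, ddet, Detect_dlog_one hD]
    ring

/-- Recipe: take `m` from `exists_entries`, `N ≥ 4` from `exists_range S 4`,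
`M g = Matrix.of fun i j : Fin N => m g i j` (so `M (iota _ y) = pm y`), and
`f a b c = trace ((M (a*b*c)⁻¹).map ρ * (M a).map (D 0) * ...)`, which satisfies
`f (iota _ a) (iota _ b) (iota _ c) = trc ρ D a b c`.  Finally
`iota Fin.valEmbedding (alpha a) = iota Fin.valEmbedding (relabel (Fin.castLEEmb _) (alpha a))`
(`iota_relabel`). -/
theorem detect {ρ : A →+* B} {D : Fin 3 → A →+ B} (hD : IsDer ρ D) (a b c : Aˣ)
    (S : Finset (PSt A)) :
    ∃ f : PSt A → PSt A → PSt A → B,
      (∀ g0 ∈ S, ∀ g1 ∈ S, ∀ g2 ∈ S, ∀ g3 ∈ S, cob3 f g0 g1 g2 g3 = 0) ∧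
      alt3 f (iota Fin.valEmbedding (alpha a)) (iota Fin.valEmbedding (beta b))
        (iota Fin.valEmbedding (gamma c)) = 4 * ddet ρ D a b c := by
  obtain ⟨m, hm⟩ := exists_entries (R := A)
  obtain ⟨N, hN, hS⟩ := exists_range S 4
  set M : PSt A → Matrix (Fin N) (Fin N) A := fun g => Matrix.of fun i j : Fin N => m g i j
    with hM
  have hM1 : ∀ y : St (Fin N) A, M (iota Fin.valEmbedding y) = pm y := fun y => by
    ext i j
    exact hm N y i j
  set f : PSt A → PSt A → PSt A → B := fun a b c =>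
    Matrix.trace ((M (a * b * c)⁻¹).map ρ * (M a).map (D 0) * (M b).map (D 1) * (M c).map (D 2))
    with hf
  have hf1 : ∀ x y z : St (Fin N) A, f (iota Fin.valEmbedding x) (iota Fin.valEmbedding y)
      (iota Fin.valEmbedding z) = trc ρ D x y z := fun x y z => by
    simp only [hf, ← map_mul, ← map_inv, hM1, trc]
  refine ⟨f, fun g0 h0 g1 h1 g2 h2 g3 h3 => ?_, ?_⟩
  · obtain ⟨y0, rfl⟩ := hS g0 h0
    obtain ⟨y1, rfl⟩ := hS g1 h1
    obtain ⟨y2, rfl⟩ := hS g2 h2
    obtain ⟨y3, rfl⟩ := hS g3 h3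
    have := trc_coc3 (V := Fin N) hD y0 y1 y2 y3
    simp only [cob3, ← map_mul, hf1] at this ⊢
    exact this
  · have he : ∀ y : St (Fin 4) A, iota Fin.valEmbedding y =
        iota Fin.valEmbedding (relabel (Fin.castLEEmb hN) y) := fun y => by
      rw [iota_relabel]; rfl
    rw [he, he (beta b), he (gamma c), ← alt3_trc hD (Fin.castLEEmb hN)]
    simp only [alt3, hf1]

end Crest.Agent.R171
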