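import Crest.Agent.R171.Defs

/-!
# R171: central extensions of Steinberg groups split (Kervaire, Steinberg; Milnor's Theorem 5.10)

Recipe for `exists_section`.  Choose lifts `L i j r : E` of `x i j r`.  Commutators of lifts do not
depend on the lifts: if `π y = π y'` and `π v = π v'` then `⁅y, v⁆ = ⁅y', v'⁆` (the quotients are
central).
* Step 1: if `i ≠ j`, `j ≠ k`, `i ≠ l` (and `k ≠ l`), any lifts `X` of `x i j a`, `Y` of `x k l b`
  commute.  Pick `m ∉ {i,j,k,l}`, `p = L i m 1`, `q = L m j a`.  `⁅p,q⁆` lifts `x i j a`, so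
  `X = ⁅p,q⁆ z`, `z` central; `π (Y p Y⁻¹) = π p`, `π (Y q Y⁻¹) = π q`, hence
  `Y ⁅p,q⁆ Y⁻¹ = ⁅Y p Y⁻¹, Y q Y⁻¹⁆ = ⁅p,q⁆`.
* Step 2: for distinct `h,i,j,k` and lifts `u, v, w` of `x h i a`, `x i j b`, `x j k c`:
  `⁅⁅u,v⁆,w⁆ = ⁅u,⁅v,w⁆⁆`.  With `p = ⁅u,v⁆` (lifts `x h j (ab)`), `q = ⁅v,w⁆` (lifts
  `x i k (bc)`): `u,w` commute, `p,q` commute, `q` commutes with `r' = ⁅u,q⁆` and `w`, `p` commute
  with `r = ⁅p,w⁆` (Step 1); `w v w⁻¹ = q⁻¹ v` (as `q` commutes with `v`, `w`), so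
  `w p w⁻¹ = ⁅u, q⁻¹ v⁆ = ⁅u,q⁻¹⁆ q⁻¹ p q = ⁅u,q⁻¹⁆ p` and `⁅u,q⁻¹⁆ = q⁻¹ r'⁻¹ q = r'⁻¹`.
  Consequently `⁅L h j (ab), L j k c⁆ = ⁅L h i a, L i k (bc)⁆`.
* Define `s h k a = ⁅L h j a, L j k 1⁆` for a chosen `j ∉ {h,k}` (and `s h h a = 1`).  By Step 2
  (through a fourth index) `⁅L h i a, L i k b⁆ = s h k (a b)` for every `i ∉ {h,k}`; `s h k a`
  lifts `x h k a`, so the commutator relations hold; additivity: with `u = L h j 1`, `v = L j k a`,
  `w = L j k b`: `⁅u, v w⁆ = ⁅u,v⁆ v ⁅u,w⁆ v⁻¹ = ⁅u,v⁆ ⁅u,w⁆`.  Use `St.lift`, `St.hom_ext`.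

Recipe for `coc2_symm`.  Let `E = M × G` (a structure or type synonym) with
`(m,g)(m',g') = (m + m' + e g g', g g')`; `e 1 g = e g 1 = e 1 1` (put `a = b = 1`, resp.
`b = c = 1`), the unit is `(-e 1 1, 1)`; `Group.ofLeftAxioms`.  The projection is onto with central
kernel.  For a section `σ`, `σ a * σ b = σ b * σ a` gives `e a b = e b a` on first components.
-/

noncomputable section

namespace Crest.Agent.R171

open Crest.Agent.R176 Crest.Agent.R176.St
open scoped commutatorElement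

/-- `V` has at least five elements -/
def Five (V : Type) : Prop := ∀ a b c d : V, ∃ e, e ≠ a ∧ e ≠ b ∧ e ≠ c ∧ e ≠ d

theorem five_of_card {V : Type} [Fintype V] (h : 5 ≤ Fintype.card V) : Five V := by
  classical
  intro a b c d
  have hlt : ({a, b, c, d} : Finset V).card < (Finset.univ : Finset V).card :=
    lt_of_le_of_lt Finset.card_le_four (by rw [Finset.card_univ]; omega)
  obtain ⟨k, -, hk⟩ := Finset.exists_mem_notMem_of_card_lt_card hlt
  exact ⟨k, by simpa [not_or] using hk⟩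

section group
variable {E : Type} [Group E]

theorem kv_central_left {z : E} (hz : ∀ g, Commute z g) (y v : E) : ⁅z * y, v⁆ = ⁅y, v⁆ := by
  have h := (hz (y * v * y⁻¹)).mul_inv_cancel
  calc ⁅z * y, v⁆ = (z * (y * v * y⁻¹) * z⁻¹) * v⁻¹ := by rw [commutatorElement_def]; group
    _ = ⁅y, v⁆ := by rw [h, commutatorElement_def]

theorem kv_central_right {z : E} (hz : ∀ g, Commute z g) (y v : E) : ⁅y, z * v⁆ = ⁅y, v⁆ := by
  rw [← commutatorElement_inv (z * v) y, kv_central_left hz, commutatorElement_inv]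

theorem kv_assoc {u v w : E} (h1 : Commute u w) (h2 : Commute ⁅u, v⁆ ⁅v, w⁆)
    (h3 : Commute ⁅v, w⁆ ⁅u, ⁅v, w⁆⁆) : ⁅⁅u, v⁆, w⁆ = ⁅u, ⁅v, w⁆⁆ := by
  have e1 : w * v * w⁻¹ = ⁅v, w⁆⁻¹ * v := by rw [commutatorElement_def]; group
  have e2 : w * u * w⁻¹ = u := h1.symm.mul_inv_cancel
  have e3 : w * ⁅u, v⁆ * w⁻¹ = ⁅w * u * w⁻¹, w * v * w⁻¹⁆ := by
    simp only [commutatorElement_def]; group
  rw [e1, e2] at e3
  generalize hq : ⁅v, w⁆ = q at *
  have e4 : ⁅u, q⁻¹ * v⁆ = (q⁻¹ * ⁅u, q⁆⁻¹ * q) * (q⁻¹ * ⁅u, v⁆ * q) := by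
    simp only [commutatorElement_def]; group
  have e5 : q⁻¹ * ⁅u, q⁆⁻¹ * q = ⁅u, q⁆⁻¹ := by
    rw [mul_assoc, ← h3.inv_right.eq, ← mul_assoc, inv_mul_cancel, one_mul]
  have e6 : q⁻¹ * ⁅u, v⁆ * q = ⁅u, v⁆ := by
    rw [mul_assoc, h2.eq, ← mul_assoc, inv_mul_cancel, one_mul]
  rw [e4, e5, e6] at e3
  calc ⁅⁅u, v⁆, w⁆ = ⁅u, v⁆ * (w * ⁅u, v⁆ * w⁻¹)⁻¹ := by
        rw [commutatorElement_def ⁅u, v⁆ w]; group
    _ = ⁅u, q⁆ := by rw [e3]; group

theorem kv_mul_right {u v w : E} (h : Commute v ⁅u, w⁆) : ⁅u, v * w⁆ = ⁅u, v⁆ * ⁅u, w⁆ := by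
  calc ⁅u, v * w⁆ = ⁅u, v⁆ * (v * ⁅u, w⁆ * v⁻¹) := by
        simp only [commutatorElement_def]; group
    _ = ⁅u, v⁆ * ⁅u, w⁆ := by rw [h.mul_inv_cancel]

end group

section ext
variable {V R E : Type} [Ring R] [Group E] {π : E →* St V R}

theorem kv_eq_mul (hcen : ∀ z, π z = 1 → ∀ y, Commute z y) {y y' : E} (h : π y = π y') :
    ∃ z, (∀ g, Commute z g) ∧ y = z * y' :=
  ⟨y * y'⁻¹, hcen _ (by rw [map_mul, map_inv, h, mul_inv_cancel]), by group⟩

/-- commutators of lifts do not depend on the lifts -/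
theorem kv_comm_congr (hcen : ∀ z, π z = 1 → ∀ y, Commute z y) {y y' v v' : E}
    (h1 : π y = π y') (h2 : π v = π v') : ⁅y, v⁆ = ⁅y', v'⁆ := by
  obtain ⟨z, hz, rfl⟩ := kv_eq_mul hcen h1
  obtain ⟨w, hw, rfl⟩ := kv_eq_mul hcen h2
  rw [kv_central_left hz, kv_central_right hw]

/-- Step 1 -/
theorem kv_commute (hV : Five V) (hsurj : Function.Surjective π)
    (hcen : ∀ z, π z = 1 → ∀ y, Commute z y) {i j k l : V} (hij : i ≠ j) (hjk : j ≠ k)
    (hil : i ≠ l) {a b : R} {X Y : E} (hX : π X = x i j a) (hY : π Y = x k l b) :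
    Commute X Y := by
  obtain ⟨m, hmi, hmj, hmk, hml⟩ := hV i j k l
  obtain ⟨p, hp⟩ := hsurj (x i m 1)
  obtain ⟨q, hq⟩ := hsurj (x m j a)
  have h1 : π X = π ⁅p, q⁆ := by
    rw [map_commutatorElement, hp, hq, x_comm_mul hmi.symm hmj hij, one_mul, hX]
  obtain ⟨z, hz, rfl⟩ := kv_eq_mul hcen h1
  refine Commute.mul_left (hz Y) ?_
  have h2 : π (Y * p * Y⁻¹) = π p := by
    rw [map_mul, map_mul, map_inv, hY, hp]
    exact (x_commute hil.symm hmk.symm _ _).mul_inv_cancel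
  have h3 : π (Y * q * Y⁻¹) = π q := by
    rw [map_mul, map_mul, map_inv, hY, hq]
    exact (x_commute hml.symm hjk.symm _ _).mul_inv_cancel
  have h4 : Y * ⁅p, q⁆ * Y⁻¹ = ⁅p, q⁆ := by
    have : Y * ⁅p, q⁆ * Y⁻¹ = ⁅Y * p * Y⁻¹, Y * q * Y⁻¹⁆ := by
      simp only [commutatorElement_def]; group
    rw [this, kv_comm_congr hcen h2 h3]
  exact (mul_inv_eq_iff_eq_mul.1 h4).symm

/-- Step 2 -/
theorem kv_step2 (hV : Five V) (hsurj : Function.Surjective π)
    (hcen : ∀ z, π z = 1 → ∀ y, Commute z y) {h i j k : V} (hhi : h ≠ i) (hhj : h ≠ j)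
    (hhk : h ≠ k) (hij : i ≠ j) (hik : i ≠ k) (hjk : j ≠ k) {a b c : R} {X Y X' Y' : E}
    (hX : π X = x h j (a * b)) (hY : π Y = x j k c) (hX' : π X' = x h i a)
    (hY' : π Y' = x i k (b * c)) : ⁅X, Y⁆ = ⁅X', Y'⁆ := by
  obtain ⟨v, hv⟩ := hsurj (x i j b)
  have hp : π ⁅X', v⁆ = x h j (a * b) := by
    rw [map_commutatorElement, hX', hv, x_comm_mul hhi hij hhj]
  have hq : π ⁅v, Y⁆ = x i k (b * c) := by
    rw [map_commutatorElement, hY, hv, x_comm_mul hij hjk hik]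
  have hr : π ⁅X', ⁅v, Y⁆⁆ = x h k (a * (b * c)) := by
    rw [map_commutatorElement, hX', hq, x_comm_mul hhi hik hhk]
  have key := kv_assoc (u := X') (v := v) (w := Y)
    (kv_commute hV hsurj hcen hhi hij hhk hX' hY)
    (kv_commute hV hsurj hcen hhj hij.symm hhk hp hq)
    (kv_commute hV hsurj hcen hik hhk.symm hik hq hr)
  rw [kv_comm_congr hcen (hX.trans hp.symm) rfl, key]
  exact kv_comm_congr hcen rfl (hq.trans hY'.symm)

/-- Step 3: independence of the middle index -/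
theorem kv_step3 (hV : Five V) (hsurj : Function.Surjective π)
    (hcen : ∀ z, π z = 1 → ∀ y, Commute z y) {h i j k : V} (hhi : h ≠ i) (hhj : h ≠ j)
    (hhk : h ≠ k) (hik : i ≠ k) (hjk : j ≠ k) {a b : R} {X Y X' Y' : E}
    (hX : π X = x h j (a * b)) (hY : π Y = x j k 1) (hX' : π X' = x h i a)
    (hY' : π Y' = x i k b) : ⁅X, Y⁆ = ⁅X', Y'⁆ := by
  obtain ⟨m, hmh, hmi, hmj, hmk⟩ := hV h i j k
  obtain ⟨P, hP⟩ := hsurj (x h m (a * b))
  obtain ⟨Q, hQ⟩ := hsurj (x m k 1)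
  have e1 : ⁅P, Q⁆ = ⁅X', Y'⁆ :=
    kv_step2 hV hsurj hcen hhi hmh.symm hhk hmi.symm hik hmk hP hQ hX' (by rw [hY', mul_one])
  have e2 : ⁅X, Y⁆ = ⁅P, Q⁆ :=
    kv_step2 (a := a * b) (b := 1) (c := 1) hV hsurj hcen hmh.symm hhj hhk hmj hmk hjk
      (by rw [hX, mul_one]) hY hP (by rw [hQ, mul_one])
  rw [e2, e1]

end ext

/-- central extensions of `St V R` split -/
theorem exists_section {V R E : Type} [Ring R] [Group E] (hV : Five V) (π : E →* St V R)
    (hsurj : Function.Surjective π) (hcen : ∀ z, π z = 1 → ∀ y, Commute z y) :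
    ∃ σ : St V R →* E, ∀ y, π (σ y) = y := by
  classical
  choose L hL using hsurj
  have hsurj : Function.Surjective π := fun y => ⟨L y, hL y⟩
  choose m hm using fun h k : V => hV h k h k
  let s : V → V → R → E := fun h k a =>
    if h = k then 1 else ⁅L (x h (m h k) a), L (x (m h k) k 1)⁆
  have hs : ∀ h k a, π (s h k a) = x h k a := by
    intro h k a
    by_cases hhk : h = k
    · simp [s, hhk]
    · simp only [s, if_neg hhk]
      rw [map_commutatorElement, hL, hL, x_comm_mul (hm h k).1.symm (hm h k).2.1 hhk, mul_one]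
  have hs2 : ∀ h i k a b (X Y : E), h ≠ i → i ≠ k → h ≠ k → π X = x h i a → π Y = x i k b →
      ⁅X, Y⁆ = s h k (a * b) := by
    intro h i k a b X Y hhi hik hhk hX hY
    simp only [s, if_neg hhk]
    exact (kv_step3 hV hsurj hcen hhi (hm h k).1.symm hhk hik (hm h k).2.1 (hL _) (hL _)
      hX hY).symm
  refine ⟨lift s (fun i r => by simp [s]) ?_ ?_ ?_, ?_⟩
  · intro h k a b hhk
    obtain ⟨j, hjh, hjk, -, -⟩ := hV h k h k
    have e1 := hs2 h j k 1 (a + b) (L (x h j 1)) (L (x j k a) * L (x j k b)) hjh.symm hjk hhk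
      (hL _) (by rw [map_mul, hL, hL, x_add])
    have e2 := hs2 h j k 1 a (L (x h j 1)) (L (x j k a)) hjh.symm hjk hhk (hL _) (hL _)
    have e3 := hs2 h j k 1 b (L (x h j 1)) (L (x j k b)) hjh.symm hjk hhk (hL _) (hL _)
    rw [one_mul] at e1 e2 e3
    rw [← e1, ← e2, ← e3]
    refine kv_mul_right ?_
    rw [e3]
    exact kv_commute hV hsurj hcen hjk (Ne.symm hhk) hjk (hL _) (hs _ _ _)
  · intro i j k l r t hij _ hjk hil
    exact kv_commute hV hsurj hcen hij hjk hil (hs _ _ _) (hs _ _ _)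
  · intro i j k r t hij hjk hik
    exact hs2 i j k r t _ _ hij hjk hik (hs _ _ _) (hs _ _ _)
  · intro y
    induction y using induction_on with
    | h1 => simp
    | hx i j r y _ hy => rw [map_mul, map_mul, hy, lift_x, hs]

/-- the central extension attached to a 2-cocycle -/
@[ext] structure KvExt {G M : Type} [Group G] [AddCommGroup M] (e : G → G → M)
    (he : IsCoc2 e) : Type where
  /-- central component -/
  fst : M
  /-- group component -/
  snd : G

namespace KvExt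
variable {G M : Type} [Group G] [AddCommGroup M] {e : G → G → M} {he : IsCoc2 e}

instance : Mul (KvExt e he) := ⟨fun p q => ⟨p.fst + q.fst + e p.snd q.snd, p.snd * q.snd⟩⟩
instance : One (KvExt e he) := ⟨⟨-e 1 1, 1⟩⟩
instance : Inv (KvExt e he) := ⟨fun p => ⟨-e 1 1 - p.fst - e p.snd⁻¹ p.snd, p.snd⁻¹⟩⟩

theorem mul_fst (p q : KvExt e he) : (p * q).fst = p.fst + q.fst + e p.snd q.snd := rfl
theorem mul_snd (p q : KvExt e he) : (p * q).snd = p.snd * q.snd := rfl
theorem one_fst : (1 : KvExt e he).fst = -e 1 1 := rfl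
theorem one_snd : (1 : KvExt e he).snd = 1 := rfl
theorem inv_fst (p : KvExt e he) : p⁻¹.fst = -e 1 1 - p.fst - e p.snd⁻¹ p.snd := rfl
theorem inv_snd (p : KvExt e he) : p⁻¹.snd = p.snd⁻¹ := rfl

theorem e_one_left (he : IsCoc2 e) (g : G) : e 1 g = e 1 1 := by
  have h := he 1 1 g
  rw [one_mul, one_mul, sub_self, zero_add, sub_eq_zero] at h
  exact h

theorem e_one_right (he : IsCoc2 e) (g : G) : e g 1 = e 1 1 := by
  have h := he g 1 1
  rw [mul_one, mul_one, sub_add_cancel, sub_eq_zero] at h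
  exact h.symm

instance : Group (KvExt e he) :=
  Group.ofLeftAxioms
    (fun p q r => by
      ext
      · simp only [mul_fst, mul_snd]
        have h := he p.snd q.snd r.snd
        rw [← sub_eq_zero, ← neg_eq_zero, ← h]
        abel
      · simp only [mul_snd, mul_assoc])
    (fun p => by
      ext
      · simp only [mul_fst, one_fst, one_snd, e_one_left he]; abel
      · simp only [mul_snd, one_snd, one_mul])
    (fun p => by
      ext
      · simp only [mul_fst, one_fst, inv_fst, inv_snd]; abel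
      · simp only [mul_snd, one_snd, inv_snd, inv_mul_cancel])

/-- the projection -/
def proj : KvExt e he →* G where
  toFun p := p.snd
  map_one' := rfl
  map_mul' _ _ := rfl

theorem proj_surj : Function.Surjective (proj : KvExt e he →* G) := fun g => ⟨⟨0, g⟩, rfl⟩

theorem proj_central (z : KvExt e he) (hz : proj z = 1) (y : KvExt e he) : Commute z y := by
  have hz' : z.snd = 1 := hz
  show z * y = y * z
  ext
  · simp only [mul_fst, hz', e_one_left he, e_one_right he]; abel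
  · simp only [mul_snd, hz', one_mul, mul_one]

end KvExt

/-- 2-cocycles on `St V R` are symmetric on commuting pairs -/
theorem coc2_symm {V R M : Type} [Ring R] [AddCommGroup M] (hV : Five V)
    {e : St V R → St V R → M} (he : IsCoc2 e) {a b : St V R} (hab : Commute a b) :
    e a b = e b a := by
  obtain ⟨σ, hσ⟩ := exists_section hV (KvExt.proj : KvExt e he →* St V R) KvExt.proj_surj
    KvExt.proj_central
  have h1 : σ a * σ b = σ b * σ a := (hab.map σ).eq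
  have h2 := congrArg KvExt.fst h1
  have ha : (σ a).snd = a := hσ a
  have hb : (σ b).snd = b := hσ b
  rw [KvExt.mul_fst, KvExt.mul_fst, ha, hb, add_comm (σ b).fst] at h2
  exact add_left_cancel h2

end Crest.Agent.R171
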