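import Mathlib

/-! # R171: the computation in Milnor `K`-theory -/

namespace Crest.Agent.R171

variable {K M : Type} [CommRing K] [AddCommGroup M]

theorem milnor_one (s : Kˣ → M) (hs : ∀ a a', s (a * a') = s a + s a') : s 1 = 0 := by
  have := hs 1 1
  rw [mul_one] at this
  exact left_eq_add.1 this

theorem milnor_inv (s : Kˣ → M) (hs : ∀ a a', s (a * a') = s a + s a') (a : Kˣ) :
    s a⁻¹ = -s a := by
  have := hs a a⁻¹
  rw [mul_inv_cancel, milnor_one s hs] at this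
  exact (neg_eq_of_add_eq_zero_right this.symm).symm

/-- `{u (1-u)⁻², 1-u} = 0` -/
theorem milnor_pair (s : Kˣ → Kˣ → M) (h1 : ∀ a a' b, s (a * a') b = s a b + s a' b)
    (h2 : ∀ a b b', s a (b * b') = s a b + s a b') (st : ∀ a b : Kˣ, (a : K) + b = 1 → s a b = 0)
    (R u : Kˣ) (hR : (R : K) = 1 - u) : s (u * R⁻¹ * R⁻¹) R = 0 := by
  have e1 : s u R = 0 := st u R (by rw [hR]; ring)
  have e2 : s R u = 0 := st R u (by rw [hR]; ring)
  have e3 : s R⁻¹ (-(u * R⁻¹)) = 0 := st _ _ (by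
    have : (R : K) * ((R⁻¹ : Kˣ) : K) = 1 := R.mul_inv
    rw [Units.val_neg, Units.val_mul]
    linear_combination this - ((R⁻¹ : Kˣ) : K) * hR)
  have i1 : ∀ a b, s a⁻¹ b = -s a b := fun a b => milnor_inv (fun a => s a b) (fun a a' => h1 a a' b) a
  have i2 : ∀ a b, s a b⁻¹ = -s a b := fun a b => milnor_inv (s a) (h2 a) b
  have e4 : s R (-1) = s R R := by
    have h : -(u * R⁻¹) = -1 * u * R⁻¹ := by simp
    rw [i1, h, h2, h2, i2, e2] at e3
    linear_combination (norm := abel) -e3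
  have e5 : s R (-1) + s R (-1) = 0 := by
    rw [← h2, neg_mul_neg, one_mul]
    exact milnor_one (s R) (h2 R)
  rw [h1, h1, i1, e1, ← e4]
  linear_combination (norm := abel) -e5

theorem milnor_vanish (s : Kˣ → Kˣ → Kˣ → M)
    (h1 : ∀ a a' b c, s (a * a') b c = s a b c + s a' b c)
    (h2 : ∀ a b b' c, s a (b * b') c = s a b c + s a b' c)
    (h3 : ∀ a b c c', s a b (c * c') = s a b c + s a b c')
    (st12 : ∀ a b c : Kˣ, (a : K) + b = 1 → s a b c = 0)
    (st13 : ∀ a b c : Kˣ, (a : K) + c = 1 → s a b c = 0)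
    (st23 : ∀ a b c : Kˣ, (b : K) + c = 1 → s a b c = 0)
    (P Q R u b : Kˣ) (a : K) (hP : (P : K) = 1 - b) (hQ : (Q : K) = 1 - a)
    (hR : (R : K) = 1 - u) (hG : (1 - a * b) * (1 - (u : K)) ^ 2 = u) : s P Q R = 0 := by
  set G : Kˣ := u * R⁻¹ * R⁻¹ with hGdef
  have g1 : ∀ c, s G c R = 0 := fun c =>
    milnor_pair (fun x y => s x c y) (fun x x' y => h1 x x' c y) (fun x y y' => h3 x c y y')
      (fun x y h => st13 x c y h) R u hR
  have g2 : ∀ c, s c G R = 0 := fun c =>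
    milnor_pair (fun x y => s c x y) (fun x x' y => h2 c x x' y) (fun x y y' => h3 c x y y')
      (fun x y h => st23 c x y h) R u hR
  have hGv : (G : K) = 1 - a * b := by
    have hi : (R : K) * ((R⁻¹ : Kˣ) : K) = 1 := R.mul_inv
    rw [hGdef, Units.val_mul, Units.val_mul, ← hG, ← hR]
    linear_combination (1 - a * b) * (1 + (R : K) * ((R⁻¹ : Kˣ) : K)) * hi
  have e1 : s (P * G⁻¹) (b * Q * G⁻¹) R = 0 := st12 _ _ _ (by
    have hi : (G : K) * ((G⁻¹ : Kˣ) : K) = 1 := G.mul_inv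
    simp only [Units.val_mul]
    rw [hP, hQ]
    linear_combination hi - ((G⁻¹ : Kˣ) : K) * hGv)
  have e2 : s P b R = 0 := st12 _ _ _ (by rw [hP]; ring)
  rw [h1, milnor_inv (fun x => s x (b * Q * G⁻¹) R) (fun x x' => h1 x x' _ _) G, g1, h2, h2,
    milnor_inv (fun x => s P x R) (fun x x' => h2 P x x' R) G, g2, e2] at e1
  simpa using e1

end Crest.Agent.R171
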