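import Crest.Agent.R171.RingDefs

/-!
# R171: `AA` is a two-dimensional ramified regular local domain of mixed characteristic `(0,5)`
-/

noncomputable section

namespace Crest.Agent.R171

open Polynomial

theorem ringA_five_nonsq (n : ℤ) : n ^ 2 ≠ 5 := by
  intro h
  have h1 : n ≤ 2 := by nlinarith
  have h2 : -2 ≤ n := by nlinarith
  interval_cases n <;> simp at h

instance ringA_nonsquare : Zsqrtd.Nonsquare 5 :=
  ⟨fun n h => ringA_five_nonsq n (by rw [sq]; exact_mod_cast h.symm)⟩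

/-- `ℤ[√5]` -/
abbrev Z5 : Type := ℤ√((5 : ℕ) : ℤ)

theorem ringA_sq5 : (Zsqrtd.sqrtd : Z5) ^ 2 = 5 := by
  rw [sq, Zsqrtd.dmuld]
  norm_num

theorem ringA_irreducible : Irreducible ff := by
  have hm : ff.Monic := monic_X_pow_sub_C _ two_ne_zero
  have hd : ff.natDegree = 2 := natDegree_X_pow_sub_C
  rw [hm.irreducible_iff_roots_eq_zero_of_degree_le_three hd.ge (by omega),
    Multiset.eq_zero_iff_forall_notMem]
  intro r hr
  have h1 : r ^ 2 = dd := by
    have := ((mem_roots hm.ne_zero).1 hr).eq_zero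
    rwa [ff, eval_sub, eval_pow, eval_X, eval_C, sub_eq_zero] at this
  have h2 := congrArg (MvPolynomial.eval (fun _ => (0 : ℤ))) h1
  apply ringA_five_nonsq (MvPolynomial.eval (fun _ => (0 : ℤ)) r)
  simpa [dd, map_ofNat] using h2

/-- Recipe: `ff` is monic of degree 2 without roots (a root `r` would give `r(0,0)² = 5` in `ℤ`),
so irreducible (`Polynomial.Monic.irreducible_iff_roots_eq_zero_of_degree_le_three`), so prime in
the UFD `P0[X]`; `AdjoinRoot.isDomain_of_prime`. -/
instance isDomain_S0 : IsDomain S0 :=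
  AdjoinRoot.isDomain_of_prime ringA_irreducible.prime

instance isDomain_AA : IsDomain AA :=
  IsLocalization.isDomain_localization pp.primeCompl_le_nonZeroDivisors

/-- Recipe: `5 = w² - t y⁵ ∈ I := span {sw, sy}`.  Every `z : S0` is congruent modulo `I` to
`aeval st q` for some `q : ℤ[X]` (induction: `AdjoinRoot.induction_on`, `Polynomial.induction_on`,
`MvPolynomial.induction_on`, or: the set of such `z` is a subring).  If `ev0 z = 0` then
`algebraMap (ZMod 5)[X] kk (q.map (Int.castRingHom _)) = 0`, so `5 ∣ q`. -/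
theorem pp_eq_span : pp = Ideal.span {sw, sy} := by
  have hw : sw ∈ Ideal.span ({sw, sy} : Set S0) := Ideal.subset_span (by simp)
  have hy : sy ∈ Ideal.span ({sw, sy} : Set S0) := Ideal.subset_span (by simp)
  have hle : Ideal.span ({sw, sy} : Set S0) ≤ pp := by
    rw [Ideal.span_le]
    rintro z (rfl | rfl) <;> simp [mem_pp, ev0]
  refine le_antisymm (fun z hz => ?_) hle
  have h5 : (5 : S0) ∈ Ideal.span ({sw, sy} : Set S0) := by
    have : (5 : S0) = sw * sw - st * sy ^ 4 * sy := by rw [← sq, sw_sq]; ring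
    rw [this]
    exact Ideal.sub_mem _ (Ideal.mul_mem_left _ _ hw) (Ideal.mul_mem_left _ _ hy)
  -- `z ≡ q(t)` for the polynomial `q` obtained by a ring hom to `𝔽₅[t]`
  let I : Ideal S0 := Ideal.span ({sw, sy} : Set S0)
  have h50 : (0 : (ZMod 5)[X]) ^ 2 = 5 + X * 0 ^ 5 := by
    have : (5 : (ZMod 5)[X]) = 0 := by
      have h : (5 : ZMod 5) = 0 := rfl
      simpa [map_ofNat] using congrArg (C : ZMod 5 →+* (ZMod 5)[X]) h
    simp [this]
  let φ : S0 →+* (ZMod 5)[X] := sLift 0 0 X h50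
  have hchar : ((5 : ℕ) : S0 ⧸ I) = 0 := by
    have := Ideal.Quotient.eq_zero_iff_mem.2 h5
    simpa [map_ofNat] using this
  let c : ZMod 5 →+* S0 ⧸ I :=
    (Ideal.Quotient.lift (Ideal.span {((5 : ℕ) : ℤ)}) (Int.castRingHom (S0 ⧸ I)) (fun a ha => by
      obtain ⟨b, rfl⟩ := Ideal.mem_span_singleton'.1 ha
      simp only [map_mul, map_natCast, hchar, mul_zero])).comp
      (Int.quotientSpanNatEquivZMod 5).symm.toRingHom
  let ψ : (ZMod 5)[X] →+* S0 ⧸ I := eval₂RingHom c (Ideal.Quotient.mk I st)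
  have h1 : ψ.comp φ = Ideal.Quotient.mk I := by
    refine s_hom_ext ?_ ?_ ?_
    · simpa [φ] using (Ideal.Quotient.eq_zero_iff_mem.2 hw).symm
    · simpa [φ] using (Ideal.Quotient.eq_zero_iff_mem.2 hy).symm
    · simp [φ, ψ]
  have h2 : (algebraMap (ZMod 5)[X] kk).comp φ = ev0 := by
    refine s_hom_ext ?_ ?_ ?_ <;> simp [φ, ev0]
  have h3 : φ z = 0 := by
    apply IsFractionRing.injective (ZMod 5)[X] kk
    rw [map_zero, ← RingHom.comp_apply, h2]
    exact hz
  rw [← Ideal.Quotient.eq_zero_iff_mem, ← h1, RingHom.comp_apply, h3, map_zero]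

theorem ringA_inj : Function.Injective (algebraMap S0 AA) :=
  IsLocalization.injective AA pp.primeCompl_le_nonZeroDivisors

/-- `w ↦ √5`, `y ↦ 1`, `t ↦ 0` -/
def ringA_ev1 : S0 →+* Z5 := sLift Zsqrtd.sqrtd 1 0 (by simp [ringA_sq5])

theorem ringA_sy_ne : sy ≠ 0 := fun h => by
  have := congrArg ringA_ev1 h
  simp [ringA_ev1] at this

/-- Recipe: the hom `sLift` to `ℤ[X]`-like domains, e.g. `w ↦ √5` in `Polynomial (ℤ√5)` with
`t ↦ 0`, `y ↦ X`; then injectivity of `algebraMap S0 AA`. -/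
theorem sy_ne_zero : algebraMap S0 AA sy ≠ 0 := fun h =>
  ringA_sy_ne (ringA_inj (by rw [h, map_zero]))

/-- Recipe: `S0 →+* Polynomial (ℤ√5)` shows `CharZero S0` (`RingHom.charZero`), and
`algebraMap S0 AA` is injective. -/
instance charZero_AA : CharZero AA := by
  have : CharZero S0 := RingHom.charZero ringA_ev1
  exact charZero_of_injective_ringHom ringA_inj

theorem maximalIdeal_AA :
    IsLocalRing.maximalIdeal AA = Ideal.span {algebraMap S0 AA sw, algebraMap S0 AA sy} := by
  rw [← Localization.AtPrime.map_eq_maximalIdeal,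
    congrArg (Ideal.map (algebraMap S0 AA)) pp_eq_span, Ideal.map_span, Set.image_pair]

theorem ringA_spanFinrank : (IsLocalRing.maximalIdeal AA).spanFinrank ≤ 2 := by
  rw [maximalIdeal_AA]
  refine (Submodule.spanFinrank_span_le_ncard_of_finite (Set.toFinite _)).trans ?_
  exact (Set.ncard_insert_le _ _).trans (by simp)

/-- `w ↦ √5`, `y ↦ 0`, `t ↦ X` -/
def ringA_ev2 : S0 →+* Z5[X] := sLift (C Zsqrtd.sqrtd) 0 X (by
  rw [← C_pow, ringA_sq5]; simp [map_ofNat])

/-- Recipe.  `≤ 2`: `ringKrullDim_le_spanFinrank_maximalIdeal`, `maximalIdeal_AA`,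
`Submodule.spanFinrank_span_le_ncard_of_finite`.  `≥ 2`: the chain `⊥ < q < pp` in `S0`, where
`q` is the kernel of `sLift (C √5) 0 X : S0 →+* Polynomial (ℤ√5)` (`sy ∈ q`, `sw ∉ q`; `q ≤ pp`
because `ev0` factors through it via `Zsqrtd.lift ⟨0, _⟩ : ℤ√5 →+* kk`, `s_hom_ext`), and
`IsLocalization.AtPrime.ringKrullDim_eq_height` (or pull the chain to `AA` directly). -/
theorem ringKrullDim_AA : ringKrullDim AA = 2 := by
  refine le_antisymm ((ringKrullDim_le_spanFinrank_maximalIdeal AA).trans ?_) ?_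
  · exact_mod_cast ringA_spanFinrank
  rw [IsLocalization.AtPrime.ringKrullDim_eq_height pp AA]
  let q : Ideal S0 := RingHom.ker ringA_ev2
  have : q.IsPrime := RingHom.ker_isPrime _
  have h1 : (⊥ : Ideal S0) < q := by
    refine bot_lt_iff_ne_bot.2 fun h => ringA_sy_ne ?_
    have : sy ∈ q := by simp [q, RingHom.mem_ker, ringA_ev2]
    rwa [h, Ideal.mem_bot] at this
  let c : Z5 →+* kk := Zsqrtd.lift ⟨0, by simp [five_kk]⟩
  have h2 : (eval₂RingHom c RatFunc.X).comp ringA_ev2 = ev0 := by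
    refine s_hom_ext ?_ ?_ ?_ <;> simp [ringA_ev2, ev0, c]
  have h3 : q < pp := by
    refine lt_of_le_of_ne (fun z hz => ?_) fun h => ?_
    · rw [mem_pp, ← h2, RingHom.comp_apply, RingHom.mem_ker.1 hz, map_zero]
    · have : sw ∈ q := by rw [h]; simp [mem_pp, ev0]
      have h4 : (Zsqrtd.sqrtd : Z5) = 0 := by simpa [q, RingHom.mem_ker, ringA_ev2] using this
      have h5 := congrArg Zsqrtd.im h4
      simp at h5
  have h4 := Ideal.height_add_one_le_of_lt_of_isPrime h1
  have h5 := Ideal.height_add_one_le_of_lt_of_isPrime h3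
  rw [Ideal.height_bot, zero_add] at h4
  have h6 : (2 : ℕ∞) ≤ pp.height := le_trans (by
    rw [← one_add_one_eq_two]; gcongr) h5
  exact WithBot.coe_le_coe.2 h6

instance isRegularLocalRing_AA : IsRegularLocalRing AA := by
  have : IsNoetherianRing AA := IsLocalization.isNoetherianRing pp.primeCompl AA inferInstance
  refine IsRegularLocalRing.of_spanFinrank_maximalIdeal_le AA ?_
  rw [ringKrullDim_AA]
  exact_mod_cast ringA_spanFinrank

theorem five_mem_sq : (5 : AA) ∈ IsLocalRing.maximalIdeal AA ^ 2 := by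
  have hw : algebraMap S0 AA sw ∈ IsLocalRing.maximalIdeal AA := by
    rw [maximalIdeal_AA]; exact Ideal.subset_span (by simp)
  have hy : algebraMap S0 AA sy ∈ IsLocalRing.maximalIdeal AA := by
    rw [maximalIdeal_AA]; exact Ideal.subset_span (by simp)
  have h : (5 : AA) = algebraMap S0 AA sw ^ 2 -
      algebraMap S0 AA (st * sy ^ 3) * algebraMap S0 AA sy ^ 2 := by
    rw [← map_pow, sw_sq]
    simp only [map_add, map_mul, map_pow, map_ofNat]
    ring
  rw [h]
  exact Ideal.sub_mem _ (Ideal.pow_mem_pow hw 2) (Ideal.mul_mem_left _ _ (Ideal.pow_mem_pow hy 2))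

end Crest.Agent.R171
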