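import Crest.Agent.R171.RingDefs

/-!
# R171: three derivations of `AA` and the three units

Recipe.  `B = AdjoinRoot (X ^ 5 : kk[X])`, `η = root`, so `η⁵ = 0`, `η⁴ ≠ 0`
(`AdjoinRoot.mk_eq_zero`, degrees), `5 = 0`, `4` is a unit.  `J = TrivSqZeroExt B (Fin 3 → B)`.
`ψ0 = sLift (inr e₀) (inl η + inr e₁) (inl t + inr e₂) : S0 →+* J` (`e i = Pi.single i 1`,
`t = algebraMap kk B RatFunc.X`; both sides of the relation are `0`: check `fst` and `snd`,
`(inl η + inr e₁)⁵ = inl η⁵ + inr (5 η⁴ e₁) = 0`, `TrivSqZeroExt.snd_pow`).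
If `z ∉ pp` then `ψ0 z` is a unit: `TrivSqZeroExt.isUnit_iff_isUnit_fst`, and an element of `B`
whose image under `ε : B →+* kk`, `η ↦ 0` is nonzero is a unit (`b = c + η b'`, `η` nilpotent),
while `ε ∘ fst ∘ ψ0 = ev0` (`s_hom_ext`).  `ψ = IsLocalization.lift : AA →+* J`,
`ρ = fst ∘ ψ`, `D i z = (ψ z).snd i`; `IsDer` is `TrivSqZeroExt.snd_mul`.
Units of `AA`: images of elements outside `pp` (`IsLocalization.map_units`, `mem_pp`): `2`,
`w + 1`, `w + 3`, `1 - y`, `(w+1)² - t y⁴`.  With `W = w + 1`: `u = (w+3)/2`, `R = -W/2`,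
`a = t y⁴ / W²`, `P = 1 - y`, `Q = 1 - a`.
Logarithmic derivatives: use `ρ P * dlog i P = D i P` etc.  `ρ w = 0`, so `ρ W = 1`;
`D i P = -e₁ i`; `D i R = -e₀ i / 2`, `ρ R = -1/2`, so `dlog 0 R = 1`, `dlog 1 R = dlog 2 R = 0`,
`dlog 0 P = dlog 2 P = 0`, `(1 - η) dlog 1 P = -1`; from `a W² = t y⁴`: `ρ a = t η⁴`,
`D 2 a = η⁴`, `(1 - t η⁴) dlog 2 Q = -η⁴`.  So `ddet = dlog 0 R * dlog 1 P * dlog 2 Q` and
`(1 - η)(1 - t η⁴) ddet = η⁴ ≠ 0`.
-/

noncomputable section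

namespace Crest.Agent.R171

open Polynomial

section abstract
variable {A B : Type} [CommRing A] [CommRing B] {ρ : A →+* B} {D : Fin 3 → A →+ B}

theorem rb_der_one (hD : IsDer ρ D) (i : Fin 3) : D i 1 = 0 := by
  have h := hD i 1 1
  rw [one_mul, map_one ρ, mul_one, one_mul] at h
  exact left_eq_add.1 h

theorem rb_der_pow (hD : IsDer ρ D) (i : Fin 3) {z : A} (hz : D i z = 0) (n : ℕ) :
    D i (z ^ n) = 0 := by
  induction n with
  | zero => rw [pow_zero, rb_der_one hD]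
  | succ n ih => rw [pow_succ, hD, ih, hz, zero_mul, mul_zero, add_zero]

theorem rb_dlog (i : Fin 3) (P : Aˣ) : ρ P * dlog ρ D i P = D i P := by
  rw [dlog, ← mul_assoc, ← map_mul, Units.mul_inv, map_one, one_mul]

theorem rb_ddet (hD : IsDer ρ D) {w y t a : A} (P Q R : Aˣ) (hw : ρ w = 0)
    (hw0 : D 0 w = 1) (hw1 : D 1 w = 0) (hw2 : D 2 w = 0) (hy1 : D 1 y = 1) (hy2 : D 2 y = 0)
    (ht2 : D 2 t = 1) (hP : (P : A) = 1 - y) (hQ : (Q : A) = 1 - a)
    (hR : (R : A) + R = -(w + 1)) (ha : a * (w + 1) ^ 2 = t * y ^ 4) :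
    ρ P * ρ Q * ddet ρ D P Q R = ρ y ^ 4 := by
  have hRd : ∀ i, dlog ρ D i R = D i w := by
    intro i
    have h1 := rb_dlog (ρ := ρ) (D := D) i R
    have h2 := congrArg ρ hR
    have h3 := congrArg (D i) hR
    rw [map_add, map_neg, map_add, hw, map_one] at h2
    rw [map_add, map_neg, map_add, rb_der_one hD] at h3
    linear_combination (dlog ρ D i R) * h2 - 2 * h1 - h3
  have hP1 := rb_dlog (ρ := ρ) (D := D) 1 P
  have hP2 := rb_dlog (ρ := ρ) (D := D) 2 P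
  have hQ2 := rb_dlog (ρ := ρ) (D := D) 2 Q
  have hW : D 2 (w + 1) = 0 := by rw [map_add, hw2, rb_der_one hD, add_zero]
  have ha2 := congrArg (D 2) ha
  rw [hD, hD, rb_der_pow hD 2 hW, rb_der_pow hD 2 hy2, ht2, map_pow, map_pow, map_add, hw,
    map_one] at ha2
  have e1 : D 1 (P : A) = -1 := by rw [hP, map_sub, rb_der_one hD, hy1, zero_sub]
  have e2 : D 2 (P : A) = 0 := by rw [hP, map_sub, rb_der_one hD, hy2, sub_zero]
  have e3 : D 2 (Q : A) = -D 2 a := by rw [hQ, map_sub, rb_der_one hD, zero_sub]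
  rw [e1] at hP1
  rw [e2] at hP2
  rw [e3] at hQ2
  rw [ddet, hRd, hRd, hRd, hw0, hw1, hw2]
  linear_combination (ρ Q * dlog ρ D 2 Q) * hP1 - hQ2 - (ρ Q * dlog ρ D 1 Q) * hP2 + ha2

end abstract

/-- `𝔽₅(t)[η]/(η⁵)` -/
abbrev BB : Type := AdjoinRoot (X ^ 5 : kk[X])

/-- the class of the variable -/
def eta : BB := AdjoinRoot.root (X ^ 5 : kk[X])

theorem eta_pow_five : eta ^ 5 = 0 := by
  have h : eval₂ (AdjoinRoot.of (X ^ 5 : kk[X])) eta (X ^ 5) = 0 := AdjoinRoot.eval₂_root _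
  rwa [eval₂_X_pow] at h

theorem eta_pow_four : eta ^ 4 ≠ 0 := by
  intro h
  have h1 : AdjoinRoot.mk (X ^ 5 : kk[X]) (X ^ 4) = 0 := by
    rw [map_pow, AdjoinRoot.mk_X]; exact h
  rw [AdjoinRoot.mk_eq_zero] at h1
  have h2 := Polynomial.natDegree_le_of_dvd h1 (pow_ne_zero _ X_ne_zero)
  rw [natDegree_X_pow, natDegree_X_pow] at h2
  omega

theorem five_BB : (5 : BB) = 0 := by
  have := congrArg (algebraMap kk BB) five_kk
  rwa [map_ofNat, map_zero] at this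

/-- augmentation `η ↦ 0` -/
def epsB : BB →+* kk := AdjoinRoot.lift (RingHom.id kk) 0 (by simp)

@[simp] theorem epsB_eta : epsB eta = 0 := by simp [epsB, eta]

@[simp] theorem epsB_of (c : kk) : epsB (AdjoinRoot.of _ c) = c := by simp [epsB]

theorem isUnit_of_epsB {b : BB} (hb : epsB b ≠ 0) : IsUnit b := by
  obtain ⟨p, rfl⟩ := AdjoinRoot.mk_surjective b
  have h1 : AdjoinRoot.mk (X ^ 5 : kk[X]) p =
      AdjoinRoot.of _ (p.coeff 0) + eta * AdjoinRoot.mk _ p.divX := by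
    conv_lhs => rw [← p.X_mul_divX_add]
    rw [map_add, map_mul, AdjoinRoot.mk_X, AdjoinRoot.mk_C, add_comm]
    rfl
  rw [h1] at hb ⊢
  rw [map_add, map_mul, epsB_eta, zero_mul, add_zero, epsB_of] at hb
  have hn : IsNilpotent (eta * AdjoinRoot.mk (X ^ 5 : kk[X]) p.divX) :=
    ⟨5, by rw [mul_pow, eta_pow_five, zero_mul]⟩
  exact hn.isUnit_add_left_of_commute ((IsUnit.mk0 _ hb).map _) (Commute.all _ _)

/-- first-order jets in three directions -/
abbrev JJ : Type := TrivSqZeroExt BB (Fin 3 → BB)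

/-- image of `w` -/
def jw : JJ := ⟨0, Pi.single 0 1⟩
/-- image of `y` -/
def jy : JJ := ⟨eta, Pi.single 1 1⟩
/-- image of `t` -/
def jt : JJ := ⟨AdjoinRoot.of _ RatFunc.X, Pi.single 2 1⟩

theorem jw_fst : jw.fst = 0 := rfl
theorem jy_fst : jy.fst = eta := rfl
theorem jt_fst : jt.fst = AdjoinRoot.of _ RatFunc.X := rfl
theorem jw_snd : jw.snd = Pi.single 0 1 := rfl
theorem jy_snd : jy.snd = Pi.single 1 1 := rfl
theorem jt_snd : jt.snd = Pi.single 2 1 := rfl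

theorem five_JJ : (5 : JJ) = 0 := by
  have := congrArg (algebraMap BB JJ) five_BB
  rwa [map_ofNat, map_zero] at this

theorem jw_sq : jw ^ 2 = 0 := by
  ext
  · rw [TrivSqZeroExt.fst_pow, jw_fst]; simp
  · rw [TrivSqZeroExt.snd_pow, jw_fst]; simp

theorem jy_pow : jy ^ 5 = 0 := by
  ext i
  · rw [TrivSqZeroExt.fst_pow, jy_fst, eta_pow_five]; simp
  · rw [TrivSqZeroExt.snd_pow, ← Nat.cast_smul_eq_nsmul BB]
    have : ((5 : ℕ) : BB) = 0 := by exact_mod_cast five_BB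
    rw [this]; simp

/-- the jet map on `S0` -/
def psi0 : S0 →+* JJ := sLift jw jy jt (by rw [jw_sq, jy_pow, five_JJ]; simp)

theorem eps_psi0 (z : S0) : epsB (psi0 z).fst = ev0 z := by
  have : (epsB.comp (TrivSqZeroExt.fstHom BB BB (Fin 3 → BB)).toRingHom).comp psi0 = ev0 := by
    refine s_hom_ext ?_ ?_ ?_
    · simp [psi0, ev0, jw_fst]
    · simp [psi0, ev0, jy_fst]
    · simp [psi0, ev0, jt_fst]
  exact DFunLike.congr_fun this z

theorem psi0_unit (z : pp.primeCompl) : IsUnit (psi0 z) := by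
  rw [TrivSqZeroExt.isUnit_iff_isUnit_fst]
  refine isUnit_of_epsB ?_
  rw [eps_psi0]
  exact z.2

/-- the jet map on `AA` -/
def psi : AA →+* JJ := IsLocalization.lift (M := pp.primeCompl) psi0_unit

theorem psi_alg (z : S0) : psi (algebraMap S0 AA z) = psi0 z := IsLocalization.lift_eq _ _

/-- value -/
def rhoB : AA →+* BB := (TrivSqZeroExt.fstHom BB BB (Fin 3 → BB)).toRingHom.comp psi

/-- derivatives -/
def derB (i : Fin 3) : AA →+ BB where
  toFun z := (psi z).snd i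
  map_zero' := by simp
  map_add' a b := by simp

theorem rhoB_apply (z : AA) : rhoB z = (psi z).fst := rfl
theorem derB_apply (i : Fin 3) (z : AA) : derB i z = (psi z).snd i := rfl

theorem isDer_B : IsDer rhoB derB := by
  intro i a b
  rw [derB_apply, derB_apply, derB_apply, rhoB_apply, rhoB_apply, map_mul, TrivSqZeroExt.snd_mul]
  simp [add_comm, mul_comm]

theorem rb_unit {z : S0} (hz : ev0 z ≠ 0) : IsUnit (algebraMap S0 AA z) :=
  IsLocalization.map_units AA (⟨z, hz⟩ : pp.primeCompl)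

theorem rb_ofNat_ne {n : ℕ} (hn : (n : ZMod 5) ≠ 0) : (n : kk) ≠ 0 := by
  have := (map_ne_zero_iff (algebraMap (ZMod 5) kk) (algebraMap (ZMod 5) kk).injective).2 hn
  rwa [map_natCast] at this

theorem exists_jet : ∃ (B : Type) (_ : CommRing B) (ρ : AA →+* B) (D : Fin 3 → AA →+ B)
    (P Q R u : AAˣ) (a : AA), IsDer ρ D ∧ (P : AA) = 1 - algebraMap S0 AA sy ∧
      (Q : AA) = 1 - a ∧ (R : AA) = 1 - u ∧
      (1 - a * algebraMap S0 AA sy) * (1 - (u : AA)) ^ 2 = u ∧ 4 * ddet ρ D P Q R ≠ 0 := by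
  have ew : ev0 sw = 0 := by simp [ev0]
  have ey : ev0 sy = 0 := by simp [ev0]
  have h2 : (2 : kk) ≠ 0 := by exact_mod_cast rb_ofNat_ne (n := 2) (by decide)
  have h3 : (3 : kk) ≠ 0 := by exact_mod_cast rb_ofNat_ne (n := 3) (by decide)
  obtain ⟨T, hT⟩ := rb_unit (z := 2) (by rwa [map_ofNat])
  obtain ⟨W, hW⟩ := rb_unit (z := sw + 1) (by simp [ew])
  obtain ⟨U, hU⟩ := rb_unit (z := sw + 3) (by rwa [map_add, ew, zero_add, map_ofNat])
  obtain ⟨P, hP⟩ := rb_unit (z := 1 - sy) (by simp [ey])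
  obtain ⟨Z, hZ⟩ := rb_unit (z := (sw + 1) ^ 2 - st * sy ^ 4) (by simp [ew, ey])
  have hrel := congrArg (algebraMap S0 AA) sw_sq
  simp only [map_add, map_sub, map_mul, map_pow, map_one, map_ofNat] at hT hW hU hP hZ hrel
  have pw : psi (algebraMap S0 AA sw) = jw := by rw [psi_alg, psi0, sLift_sw]
  have py : psi (algebraMap S0 AA sy) = jy := by rw [psi_alg, psi0, sLift_sy]
  have pt : psi (algebraMap S0 AA st) = jt := by rw [psi_alg, psi0, sLift_st]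
  generalize algebraMap S0 AA sw = w at *
  generalize algebraMap S0 AA sy = y at *
  generalize algebraMap S0 AA st = t at *
  have hTi : (2 : AA) * (T⁻¹ : AAˣ) = 1 := by rw [← hT, Units.mul_inv]
  have hWi : (w + 1) * (W⁻¹ : AAˣ) = 1 := by rw [← hW, Units.mul_inv]
  have hQ : ((Z * W⁻¹ ^ 2 : AAˣ) : AA) = 1 - t * y ^ 4 * ((W⁻¹ : AAˣ) : AA) ^ 2 := by
    rw [Units.val_mul, Units.val_pow_eq_pow_val, hZ]
    linear_combination ((w + 1) * (W⁻¹ : AAˣ) + 1) * hWi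
  have hR : ((-W * T⁻¹ : AAˣ) : AA) = 1 - ((U * T⁻¹ : AAˣ) : AA) := by
    rw [Units.val_mul, Units.val_mul, Units.val_neg, hW, hU]
    linear_combination hTi
  have hRR : ((-W * T⁻¹ : AAˣ) : AA) + ((-W * T⁻¹ : AAˣ) : AA) = -(w + 1) := by
    rw [Units.val_mul, Units.val_neg, hW]
    linear_combination (-(w + 1)) * hTi
  have ha : t * y ^ 4 * ((W⁻¹ : AAˣ) : AA) ^ 2 * (w + 1) ^ 2 = t * y ^ 4 := by
    linear_combination (t * y ^ 4 * ((w + 1) * (W⁻¹ : AAˣ) + 1)) * hWi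
  refine ⟨BB, inferInstance, rhoB, derB, P, Z * W⁻¹ ^ 2, -W * T⁻¹, U * T⁻¹,
    t * y ^ 4 * ((W⁻¹ : AAˣ) : AA) ^ 2, isDer_B, hP, hQ, hR, ?_, ?_⟩
  · rw [← hR, Units.val_mul, Units.val_mul, Units.val_neg, hW, hU]
    linear_combination (-y * ((T⁻¹ : AAˣ) : AA) ^ 2) * ha + ((T⁻¹ : AAˣ) : AA) ^ 2 * hrel
      + ((w + 3) * (T⁻¹ : AAˣ)) * hTi
  · intro h
    have key := rb_ddet isDer_B (w := w) (y := y) (t := t) P (Z * W⁻¹ ^ 2) (-W * T⁻¹)
      (by rw [rhoB_apply, pw, jw_fst]) (by rw [derB_apply, pw, jw_snd]; simp)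
      (by rw [derB_apply, pw, jw_snd]; simp) (by rw [derB_apply, pw, jw_snd]; simp)
      (by rw [derB_apply, py, jy_snd]; simp) (by rw [derB_apply, py, jy_snd]; simp)
      (by rw [derB_apply, pt, jt_snd]; simp) hP hQ hRR ha
    rw [rhoB_apply y, py, jy_fst] at key
    apply eta_pow_four
    linear_combination (eta ^ 4) * five_BB + 4 * key
      - (rhoB P * rhoB ((Z * W⁻¹ ^ 2 : AAˣ) : AA)) * h

end Crest.Agent.R171
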