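import Crest.Agent.R171.Vanish
import Crest.Agent.R171.Milnor
import Crest.Agent.R171.Detect
import Crest.Agent.R171.RingA
import Crest.Agent.R171.RingB
import Crest.Agent.R171.Bridge

/-! # R171: assembly -/

noncomputable section

namespace Crest.Agent.R171

open Crest.Agent.R176 Crest.Agent.R176.St Crest.AlgebraR.Steinberg

theorem vanish_of_unit {A K M : Type} [CommRing A] [CommRing K] [AddCommGroup M] (φ : A →+* K)
    (P Q R u : Aˣ) (a b : A) (hb : IsUnit (φ b)) (hP : (P : A) = 1 - b) (hQ : (Q : A) = 1 - a)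
    (hR : (R : A) = 1 - u) (hG : (1 - a * b) * (1 - (u : A)) ^ 2 = u)
    (f : PSt K → PSt K → PSt K → M) (hf : IsCoc3 f) :
    alt3 f (stMap φ (iota Fin.valEmbedding (alpha P))) (stMap φ (iota Fin.valEmbedding (beta Q)))
      (stMap φ (iota Fin.valEmbedding (gamma R))) = 0 := by
  have he : (Fin.valEmbedding : Fin 4 ↪ ℕ) = e4.trans Fin.valEmbedding :=
    Function.Embedding.ext fun _ => rfl
  rw [stMap_iota, stMap_iota, stMap_iota, map_alpha, map_beta, map_gamma, he, ← iota_relabel,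
    ← iota_relabel, ← iota_relabel]
  have hF := hf.comp (iota (R := K) (Fin.valEmbedding : Fin 10 ↪ ℕ))
  refine milnor_vanish (sym _) (sym_mul1 hF) (sym_mul2 hF) (sym_mul3 hF) (sym_stein12 hF)
    (sym_stein13 hF) (sym_stein23 hF) _ _ _ (Units.map (φ : A →* K) u) hb.unit (φ a) ?_ ?_ ?_ ?_
  · simp [hP]
  · simp [hQ]
  · simp [hR]
  · simpa using congrArg φ hG

theorem not_inj_of {A B : Type} [CommRing A] [IsDomain A] [CommRing B] {ρ : A →+* B}
    {D : Fin 3 → A →+ B} (hD : IsDer ρ D) (P Q R u : Aˣ) (a b : A) (hb : b ≠ 0)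
    (hP : (P : A) = 1 - b) (hQ : (Q : A) = 1 - a) (hR : (R : A) = 1 - u)
    (hG : (1 - a * b) * (1 - (u : A)) ^ 2 = u) (hne : 4 * ddet ρ D P Q R ≠ 0) :
    ¬ Function.Injective (H3map (algebraMap A (FractionRing A))).hom := by
  refine not_injective_H3 (B := B) (stMap _) (trivialHom _) (fun _ => rfl)
    (a := iota Fin.valEmbedding (alpha P)) (b := iota Fin.valEmbedding (beta Q))
    (c := iota Fin.valEmbedding (gamma R)) ((commute_alpha_beta P Q).map _)
    ((commute_alpha_gamma P R).map _) ((commute_beta_gamma Q R).map _) ?_ ?_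
  · intro M _ f hf
    refine vanish_of_unit _ P Q R u a b ?_ hP hQ hR hG f hf
    refine IsUnit.mk0 _ ?_
    rw [map_ne_zero_iff _ (IsFractionRing.injective A (FractionRing A))]
    exact hb
  · intro S
    obtain ⟨f, h1, h2⟩ := detect hD P Q R S
    exact ⟨f, h1, by rw [h2]; exact hne⟩

theorem main :
    ∃ (A : Type) (_ : CommRing A) (_ : IsDomain A) (_ : IsRegularLocalRing A),
      ringKrullDim A = 2 ∧ CharZero A ∧ (5 : A) ∈ IsLocalRing.maximalIdeal A ^ 2 ∧
        ¬ Function.Injective (H3map (algebraMap A (FractionRing A))).hom := by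
  obtain ⟨B, _, ρ, D, P, Q, R, u, a, hD, hP, hQ, hR, hG, hne⟩ := exists_jet
  exact ⟨AA, inferInstance, inferInstance, inferInstance, ringKrullDim_AA, inferInstance,
    five_mem_sq, not_inj_of hD P Q R u a _ sy_ne_zero hP hQ hR hG hne⟩

end Crest.Agent.R171
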