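import Crest.Agent.R171.Defs

/-!
# R171: matrix entries of elements of the stable Steinberg group
-/

noncomputable section

namespace Crest.Agent.R171

open Crest.Agent.R176 Crest.Agent.R176.St

variable {R : Type} [CommRing R]

/-- the elementary endomorphism `v ↦ r v_j e_i` -/
def Rep_E (i j : ℕ) (r : R) : Module.End R (ℕ → R) :=
  (LinearMap.single R (fun _ => R) i).comp (r • LinearMap.proj j)

theorem Rep_E_apply (i j : ℕ) (r : R) (v : ℕ → R) (k : ℕ) :
    Rep_E i j r v k = if k = i then r * v j else 0 := by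
  simp [Rep_E, Pi.single_apply]

theorem Rep_E_add (i j : ℕ) (r s : R) : Rep_E i j (r + s) = Rep_E i j r + Rep_E i j s := by
  ext v k
  simp only [LinearMap.add_apply, Pi.add_apply, Rep_E_apply]
  split_ifs <;> ring

theorem Rep_E_zero (i j : ℕ) : Rep_E i j (0 : R) = 0 := by
  ext v k
  simp [Rep_E_apply]

theorem Rep_E_mul_ne {j k : ℕ} (h : j ≠ k) (i l : ℕ) (r s : R) :
    Rep_E i j r * Rep_E k l s = 0 := by
  ext v m
  simp [Rep_E_apply, h]

theorem Rep_E_mul (i j l : ℕ) (r s : R) : Rep_E i j r * Rep_E j l s = Rep_E i l (r * s) := by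
  ext v m
  simp [Rep_E_apply, mul_assoc]

/-- the elementary automorphism -/
def Rep_U (i j : ℕ) (h : i ≠ j) (r : R) : (Module.End R (ℕ → R))ˣ :=
  ⟨1 + Rep_E i j r, 1 + Rep_E i j (-r), by
    rw [add_mul, mul_add, mul_add, Rep_E_mul_ne h.symm, one_mul, one_mul, mul_one, add_zero,
      add_assoc, ← Rep_E_add, neg_add_cancel, Rep_E_zero, add_zero], by
    rw [add_mul, mul_add, mul_add, Rep_E_mul_ne h.symm, one_mul, one_mul, mul_one, add_zero,
      add_assoc, ← Rep_E_add, add_neg_cancel, Rep_E_zero, add_zero]⟩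

/-- the stable representation -/
def Rep_rep : PSt R →* (Module.End R (ℕ → R))ˣ :=
  PresentedGroup.toGroup (rels := Crest.AlgebraR.Steinberg.rels R)
    (f := fun g => Rep_U g.1.1.1 g.1.1.2 g.1.2 g.2) (by
    rintro _ ((⟨i, j, h, a, b, rfl⟩ | ⟨i, j, k, l, hij, hkl, a, b, hjk, hil, rfl⟩) |
      ⟨i, j, l, hij, hjl, hil, a, b, rfl⟩)
    · simp only [map_mul, map_inv, Crest.AlgebraR.Steinberg.x, FreeGroup.lift_apply_of]
      rw [mul_inv_eq_one]
      refine Units.ext ?_
      simp only [Rep_U, Units.val_mul, mul_add, add_mul, one_mul, mul_one, Rep_E_mul_ne h.symm,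
        Rep_E_add]
      abel
    · simp only [map_mul, map_inv, Crest.AlgebraR.Steinberg.x, FreeGroup.lift_apply_of]
      rw [mul_inv_eq_one, mul_inv_eq_iff_eq_mul]
      refine Units.ext ?_
      simp only [Rep_U, Units.val_mul, mul_add, add_mul, one_mul, mul_one, Rep_E_mul_ne hjk,
        Rep_E_mul_ne hil.symm]
      abel
    · simp only [map_mul, map_inv, Crest.AlgebraR.Steinberg.x, FreeGroup.lift_apply_of]
      rw [mul_inv_eq_one, mul_inv_eq_iff_eq_mul, mul_inv_eq_iff_eq_mul]
      refine Units.ext ?_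
      simp only [Rep_U, Units.val_mul, mul_add, add_mul, one_mul, mul_one, Rep_E_mul,
        Rep_E_mul_ne hil.symm, Rep_E_mul_ne hjl.symm, add_zero]
      abel)

theorem Rep_rep_px {i j : ℕ} (h : i ≠ j) (r : R) :
    (Rep_rep (px i j r) : Module.End R (ℕ → R)) = 1 + Rep_E i j r := by
  rw [px_of_ne h, Rep_rep, PresentedGroup.toGroup.of]
  rfl

theorem Rep_rep_iota (N : ℕ) (y : St (Fin N) R) (v : ℕ → R) (i : Fin N) :
    (Rep_rep (iota Fin.valEmbedding y) : Module.End R (ℕ → R)) v i =
      ∑ k : Fin N, pm y i k * v k := by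
  induction y using St.induction_on generalizing i with
  | h1 => simp [Matrix.one_apply]
  | hx a b r y hab hy =>
    have hab' : (a : ℕ) ≠ b := fun e => hab (Fin.ext e)
    rw [map_mul, map_mul, map_mul, Units.val_mul, iota_x, Fin.valEmbedding_apply,
      Rep_rep_px hab', pm_x_of_ne hab, Module.End.mul_apply,
      LinearMap.add_apply, Pi.add_apply, Module.End.one_apply, Rep_E_apply, hy, hy, add_mul,
      one_mul]
    simp only [Matrix.add_apply, add_mul, Finset.sum_add_distrib]
    congr 1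
    by_cases hi : i = a
    · subst hi
      simp [Finset.mul_sum, mul_assoc]
    · rw [if_neg (fun e => hi (Fin.ext e))]
      refine (Finset.sum_eq_zero fun k _ => ?_).symm
      rw [Matrix.single_mul_apply_of_ne _ _ _ _ _ hi, zero_mul]

/-- Recipe.  `PSt R` acts on `ℕ → R`: the generator `px i j r` acts by the linear automorphism
`v ↦ v + Pi.single i (r * v j)`; `PresentedGroup.toGroup` into `(Module.End R (ℕ → R))ˣ` (or
`(ℕ → R) ≃ₗ[R] (ℕ → R)`), checking the three families of relators.  Put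
`m g i j = (rep g (Pi.single j 1)) i`.  For `y : St (Fin N) R` show by `St.induction_on` that for
all `v : ℕ → R` and `i : ℕ`, `rep (iota _ y) v i` is `∑ k : Fin N, pm y ⟨i,_⟩ k * v k` if `i < N`
and `v i` otherwise (`pm_x_of_ne`, `iota_x`, `px_of_ne`). -/
theorem exists_entries : ∃ m : PSt R → ℕ → ℕ → R, ∀ (N : ℕ) (y : St (Fin N) R) (i j : Fin N),
    m (iota Fin.valEmbedding y) i j = pm y i j := by
  refine ⟨fun g i j => (Rep_rep g : Module.End R (ℕ → R)) (Pi.single j 1) i, fun N y i j => ?_⟩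
  show (Rep_rep (iota Fin.valEmbedding y) : Module.End R (ℕ → R)) (Pi.single (j : ℕ) 1) i = _
  rw [Rep_rep_iota, Finset.sum_eq_single j]
  · simp
  · intro k _ hk
    rw [Pi.single_eq_of_ne (fun e => hk (Fin.ext e)), mul_zero]
  · simp

theorem Rep_range_mono {N N' : ℕ} (h : N ≤ N') {g : PSt R}
    (hg : ∃ y : St (Fin N) R, iota Fin.valEmbedding y = g) :
    ∃ y : St (Fin N') R, iota Fin.valEmbedding y = g := by
  obtain ⟨y, rfl⟩ := hg
  refine ⟨relabel (Fin.castLEEmb h) y, ?_⟩
  rw [iota_relabel]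
  rfl

theorem Rep_exists_range (g : PSt R) : ∃ N, ∃ y : St (Fin N) R, iota Fin.valEmbedding y = g := by
  let H : Subgroup (PSt R) :=
    { carrier := {g | ∃ N, ∃ y : St (Fin N) R, iota Fin.valEmbedding y = g}
      one_mem' := ⟨0, 1, map_one _⟩
      mul_mem' := by
        rintro a b ⟨N, ha⟩ ⟨N', hb⟩
        obtain ⟨y, rfl⟩ := Rep_range_mono (le_max_left N N') ha
        obtain ⟨y', rfl⟩ := Rep_range_mono (le_max_right N N') hb
        exact ⟨_, y * y', map_mul _ _ _⟩
      inv_mem' := by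
        rintro a ⟨N, y, rfl⟩
        exact ⟨N, y⁻¹, map_inv _ _⟩ }
  refine PresentedGroup.generated_by _ H ?_ g
  rintro ⟨⟨⟨i, j⟩, h⟩, r⟩
  refine ⟨max i j + 1, x ⟨i, by omega⟩ ⟨j, by omega⟩ r, ?_⟩
  rw [iota_x]
  exact px_of_ne h r

/-- Recipe.  The ranges of `iota Fin.valEmbedding : St (Fin N) R →* PSt R` increase with `N`
(`iota_relabel` with `Fin.castLEEmb`); the set of `g` lying in these ranges for all large `N` is a
subgroup containing the generators (`PresentedGroup.generated_by` / `closure_range_of`). -/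
theorem exists_range (S : Finset (PSt R)) (n : ℕ) :
    ∃ N, n ≤ N ∧ ∀ g ∈ S, ∃ y : St (Fin N) R, iota Fin.valEmbedding y = g := by
  classical
  induction S using Finset.induction_on with
  | empty => exact ⟨n, le_rfl, by simp⟩
  | insert g S _ ih =>
    obtain ⟨N, hN, h⟩ := ih
    obtain ⟨N', hg⟩ := Rep_exists_range g
    refine ⟨max N N', hN.trans (le_max_left _ _), fun g' hg' => ?_⟩
    rcases Finset.mem_insert.1 hg' with rfl | hg'
    · exact Rep_range_mono (le_max_right _ _) hg
    · exact Rep_range_mono (le_max_left _ _) (h g' hg')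

end Crest.Agent.R171
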