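import Crest.Agent.R171.Defs

/-!
# R171: the ring `A = (ℤ[y,t][w]/(w² - 5 - t y⁵))_{(w,y)}`
-/

noncomputable section

namespace Crest.Agent.R171

open Polynomial

instance fact_prime_five : Fact (Nat.Prime 5) := ⟨by norm_num⟩

/-- `ℤ[y,t]`, `y = X 0`, `t = X 1` -/
abbrev P0 : Type := MvPolynomial (Fin 2) ℤ

/-- `5 + t y⁵` -/
def dd : P0 := 5 + MvPolynomial.X 1 * MvPolynomial.X 0 ^ 5

/-- `w² - 5 - t y⁵` -/
def ff : P0[X] := X ^ 2 - C dd

/-- `ℤ[y,t][w]/(w² - 5 - t y⁵)` -/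
abbrev S0 : Type := AdjoinRoot ff

def sw : S0 := AdjoinRoot.root ff
def sy : S0 := AdjoinRoot.of ff (MvPolynomial.X 0)
def st : S0 := AdjoinRoot.of ff (MvPolynomial.X 1)

theorem sw_sq : sw ^ 2 = 5 + st * sy ^ 5 := by
  have h : eval₂ (AdjoinRoot.of ff) sw (X ^ 2 - C dd) = 0 := AdjoinRoot.eval₂_root ff
  rw [eval₂_sub, eval₂_X_pow, eval₂_C, sub_eq_zero] at h
  rw [h, dd, map_add, map_mul, map_pow, map_ofNat]
  rfl

/-- universal property of `S0` -/
def sLift {K : Type} [CommRing K] (w y t : K) (h : w ^ 2 = 5 + t * y ^ 5) : S0 →+* K :=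
  AdjoinRoot.lift (MvPolynomial.eval₂Hom (Int.castRingHom K) ![y, t]) w (by
    rw [ff, eval₂_sub, eval₂_X_pow, eval₂_C, h]
    simp [dd])

@[simp] theorem sLift_sw {K : Type} [CommRing K] (w y t : K) (h : w ^ 2 = 5 + t * y ^ 5) :
    sLift w y t h sw = w := by
  simp [sLift, sw]

@[simp] theorem sLift_sy {K : Type} [CommRing K] (w y t : K) (h : w ^ 2 = 5 + t * y ^ 5) :
    sLift w y t h sy = y := by
  simp [sLift, sy]

@[simp] theorem sLift_st {K : Type} [CommRing K] (w y t : K) (h : w ^ 2 = 5 + t * y ^ 5) :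
    sLift w y t h st = t := by
  simp [sLift, st]

theorem s_hom_ext {K : Type} [CommRing K] {f g : S0 →+* K} (hw : f sw = g sw) (hy : f sy = g sy)
    (ht : f st = g st) : f = g := by
  refine AdjoinRoot.ringHom_ext ?_ hw
  refine MvPolynomial.ringHom_ext (fun r => by simp) (fun i => ?_)
  fin_cases i
  · exact hy
  · exact ht

/-- the residue field `𝔽₅(t)` -/
abbrev kk : Type := RatFunc (ZMod 5)

theorem five_kk : (5 : kk) = 0 := by
  have h : (5 : ZMod 5) = 0 := rfl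
  have := congrArg (algebraMap (ZMod 5) kk) h
  simpa [map_ofNat] using this

/-- `w ↦ 0`, `y ↦ 0`, `t ↦ t` -/
def ev0 : S0 →+* kk := sLift 0 0 RatFunc.X (by simp [five_kk])

/-- the prime ideal `(w, y)` -/
def pp : Ideal S0 := RingHom.ker ev0

instance pp_isPrime : pp.IsPrime := RingHom.ker_isPrime ev0

theorem mem_pp {z : S0} : z ∈ pp ↔ ev0 z = 0 := Iff.rfl

/-- the ring of the counterexample -/
abbrev AA : Type := Localization.AtPrime pp

end Crest.Agent.R171
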