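import Crest.Agent.R171.Cocyc
import Crest.Agent.R171.Kervaire
import Crest.Agent.R171.Tor

/-!
# R171: the symbol `sym` is trilinear and satisfies the Steinberg relations

All lemmas of `Cocyc`, `Kervaire`, `Tor` may be used.
-/

noncomputable section

namespace Crest.Agent.R171

open Crest.Agent.R176 Crest.Agent.R176.St
open scoped commutatorElement

set_option linter.unusedSectionVars false

variable {V W R M : Type} [CommRing R] [AddCommGroup M] [Fintype V] [DecidableEq V]
  [Fintype W] [DecidableEq W] {f : St V R → St V R → St V R → M}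

/-- Recipe: `alt3_eq_slant`, `slant_coc2` for `j = relabel e`, `coc2_symm`. -/
theorem alt3_block (hf : IsCoc3 f) (hW : Five W) (e : W ↪ V) {c : St V R}
    (hc : ∀ y : St W R, Commute (relabel e y) c) {a b : St W R} (hab : Commute a b) :
    alt3 f (relabel e a) (relabel e b) c = 0 := by
  rw [alt3_eq_slant]
  exact sub_eq_zero.2 (coc2_symm hW (slant_coc2 hf (relabel e) hc) hab)

/-- Recipe: `alt3_cyc`, `slant_coc2` for `j = MonoidHom.id`, `coc2_symm`. -/
theorem alt3_central (hf : IsCoc3 f) (hV : Five V) {z b c : St V R} (hz : ∀ y, Commute z y)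
    (hbc : Commute b c) : alt3 f z b c = 0 := by
  rw [← alt3_cyc, alt3_eq_slant]
  exact sub_eq_zero.2 (coc2_symm hV (slant_coc2 hf (MonoidHom.id _) fun y => (hz y).symm) hbc)

/-- Recipe: `y ↦ alt3 f (relabel e y) b c` is a hom `St W R →* Multiplicative M`
(`alt3_mul_left`, `MonoidHom.mk'`); it kills the generators, which are commutators
(`x_comm_mul` with a third index); `St.hom_ext`. -/
theorem alt3_perfect (hf : IsCoc3 f) (hW : Five W) (e : W ↪ V) {b c : St V R}
    (hb : ∀ y : St W R, Commute (relabel e y) b) (hc : ∀ y : St W R, Commute (relabel e y) c)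
    (hbc : Commute b c) (y : St W R) : alt3 f (relabel e y) b c = 0 := by
  let φ : St W R →* Multiplicative M :=
    MonoidHom.mk' (fun y => Multiplicative.ofAdd (alt3 f (relabel e y) b c)) (fun y y' => by
      rw [map_mul, alt3_mul_left hf (hb y) (hb y') (hc y) (hc y') hbc, ofAdd_add])
  have h1 : φ = 1 := hom_ext fun i j r hij => by
    obtain ⟨k, hi, hj, -, -⟩ := hW i j i j
    have : x i j r = ⁅x i k r, x k j (1 : R)⁆ := by rw [x_comm_mul hi.symm hj hij, mul_one]
    rw [this, map_commutatorElement, commutatorElement_eq_one_iff_commute.2 (Commute.all _ _),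
      MonoidHom.one_apply]
  exact congrArg Multiplicative.toAdd (DFunLike.congr_fun h1 y)

theorem alt3_central1 (hf : IsCoc3 f) (hV : Five V) {z a b c : St V R} (hz : ∀ y, Commute z y)
    (hab : Commute a b) (hac : Commute a c) (hbc : Commute b c) :
    alt3 f (a * z) b c = alt3 f a b c := by
  rw [alt3_mul_left hf hab (hz b) hac (hz c) hbc, alt3_central hf hV hz hbc, add_zero]

theorem alt3_central2 (hf : IsCoc3 f) (hV : Five V) {z a b c : St V R} (hz : ∀ y, Commute z y)
    (hab : Commute a b) (hac : Commute a c) (hbc : Commute b c) :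
    alt3 f a (b * z) c = alt3 f a b c := by
  rw [alt3_swap12 f (b * z) a c, alt3_central1 hf hV hz hab.symm hbc hac, alt3_swap12 f b a c]

theorem alt3_central3 (hf : IsCoc3 f) (hV : Five V) {z a b c : St V R} (hz : ∀ y, Commute z y)
    (hab : Commute a b) (hac : Commute a c) (hbc : Commute b c) :
    alt3 f a b (c * z) = alt3 f a b c := by
  rw [alt3_cyc f (c * z) a b, alt3_central1 hf hV hz hac.symm hbc.symm hab, alt3_cyc f c a b]

/-- the six auxiliary indices -/
def Vanish_e3 (e1 e2 : Fin 5 ↪ V) (h12 : ∀ a b, e1 a ≠ e2 b) : Fin 3 ⊕ Fin 3 ↪ V :=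
  ⟨Sum.elim (fun k => e1 (Fin.natAdd 2 k)) (fun k => e2 (Fin.natAdd 2 k)), by
    rintro (a | a) (b | b) hab
    · exact congrArg Sum.inl (Fin.natAdd_injective 3 2 (e1.injective hab))
    · exact absurd hab (h12 _ _)
    · exact absurd hab.symm (h12 _ _)
    · exact congrArg Sum.inr (Fin.natAdd_injective 3 2 (e2.injective hab))⟩

/-- **The Steinberg relation in block form.**
Recipe.  Put `A1 = relabel e1 (h 0 1 u)`, `A2 = relabel e2 (h 0 1 u)`, `B1 = relabel e1 (h 0 1 v)`,
`B2 = relabel e2 (h 0 1 v)` (`relabel_h`); they commute pairwise (`h_commute_of_add` in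
`St (Fin 5) R`, `relabel_commute`).  `g1 = A1 A2 z1`, `g2 = B1 B2⁻¹ z2`, `g3 = C z3` with central
`z`'s (`isTor_central`, `isTor_h`, `IsTor.mul`, `IsTor.inv`), where
`C = h (e1 0) (e2 0) c * h (e1 1) (e2 1) c`.  Let `C' = ∏_{k=2,3,4} h (e1 k) (e2 k) c`,
`Γ = C C'`: a torus element equal to `c` on the range of `e1` and `c⁻¹` on the range of `e2`, so it
commutes with both blocks (`isTor_commute_relabel`).  `C' = relabel e3 _` for the embedding
`e3 : Fin 3 ⊕ Fin 3 ↪ V` of the six indices `e1 k`, `e2 k`, `k ≥ 2`, whose range is disjoint from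
`{e1 0, e1 1, e2 0, e2 1}`; so the `A`'s and `B`'s (and `g1`, `g2`) commute with `relabel e3 y`
(write them as `relabel` along `Fin 2 ↪ V`, or use `relabel_commute` / `St.induction_on` with
`x_commute`), and `alt3 f g1 g2 C' = 0` (`alt3_perfect`, `alt3_cyc`).  Hence
`alt3 f g1 g2 g3 = alt3 f g1 g2 Γ` (`alt3_mul_right`, `alt3_central`), and expanding with
`alt3_mul_left`, `alt3_mul_mid`, `alt3_inv_mid`: the central terms vanish (`alt3_central` and the
swaps), `alt3 f A1 B1 Γ = alt3 f A2 B2 Γ = 0` (`alt3_block`), and the cross terms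
`alt3 f A1 B2 Γ`, `alt3 f A2 B1 Γ` vanish by `alt3_perfect`. -/
theorem stein_block (hf : IsCoc3 f) (e1 e2 : Fin 5 ↪ V) (h12 : ∀ a b, e1 a ≠ e2 b) {u v c : Rˣ}
    (huv : (u : R) + v = 1) {g1 g2 g3 : St V R}
    (h1 : IsTor g1 (d2 (e1 0) (e1 1) u u⁻¹ * d2 (e2 0) (e2 1) u u⁻¹))
    (h2 : IsTor g2 (d2 (e1 0) (e1 1) v v⁻¹ * (d2 (e2 0) (e2 1) v v⁻¹)⁻¹))
    (h3 : IsTor g3 (d2 (e1 0) (e2 0) c c⁻¹ * d2 (e1 1) (e2 1) c c⁻¹)) :
    alt3 f g1 g2 g3 = 0 := by
  have hcard : 5 ≤ Fintype.card V := by simpa using Fintype.card_le_of_embedding e1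
  have hV : Five V := five_of_card hcard
  have hV3 : 3 ≤ Fintype.card V := by omega
  have h5 : Five (Fin 5) := five_of_card (by simp)
  have h21 : ∀ a b, e2 a ≠ e1 b := fun a b => (h12 b a).symm
  have n1 : ∀ {a b : Fin 5}, a ≠ b → e1 a ≠ e1 b := fun h => e1.injective.ne h
  have n2 : ∀ {a b : Fin 5}, a ≠ b → e2 a ≠ e2 b := fun h => e2.injective.ne h
  -- the pieces
  set a0 : St (Fin 5) R := h 0 1 u with ha0
  set b0 : St (Fin 5) R := h 0 1 v with hb0
  have hab0 : Commute a0 b0 := h_commute_of_add (by simp) (by decide) huv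
  have tA1 : IsTor (relabel e1 a0) (d2 (e1 0) (e1 1) u u⁻¹) := by
    rw [ha0, relabel_h]; exact isTor_h hV3 (n1 (by decide)) u
  have tA2 : IsTor (relabel e2 a0) (d2 (e2 0) (e2 1) u u⁻¹) := by
    rw [ha0, relabel_h]; exact isTor_h hV3 (n2 (by decide)) u
  have tB1 : IsTor (relabel e1 b0) (d2 (e1 0) (e1 1) v v⁻¹) := by
    rw [hb0, relabel_h]; exact isTor_h hV3 (n1 (by decide)) v
  have tB2 : IsTor (relabel e2 b0) (d2 (e2 0) (e2 1) v v⁻¹) := by
    rw [hb0, relabel_h]; exact isTor_h hV3 (n2 (by decide)) v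
  obtain ⟨z1, hz1, rfl⟩ := isTor_central (tA1.mul tA2) h1
  obtain ⟨z2, hz2, rfl⟩ := isTor_central (tB1.mul tB2.inv) h2
  set e3 := Vanish_e3 e1 e2 h12 with he3
  set c0 : St (Fin 3 ⊕ Fin 3) R := h (Sum.inl 0) (Sum.inr 0) c * h (Sum.inl 1) (Sum.inr 1) c *
    h (Sum.inl 2) (Sum.inr 2) c with hc0
  have tC : IsTor (relabel e3 c0)
      (d2 (e1 2) (e2 2) c c⁻¹ * d2 (e1 3) (e2 3) c c⁻¹ * d2 (e1 4) (e2 4) c c⁻¹) := by
    rw [hc0, map_mul, map_mul, relabel_h, relabel_h, relabel_h]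
    exact ((isTor_h hV3 (h12 2 2) c).mul (isTor_h hV3 (h12 3 3) c)).mul (isTor_h hV3 (h12 4 4) c)
  have tG := h3.mul tC
  have cG1 : ∀ y : St (Fin 5) R, Commute (relabel e1 y) (g3 * relabel e3 c0) := fun y =>
    isTor_commute_relabel tG e1 c (fun k => by fin_cases k <;> simp [d2, h12]) y
  have cG2 : ∀ y : St (Fin 5) R, Commute (relabel e2 y) (g3 * relabel e3 c0) := fun y =>
    isTor_commute_relabel tG e2 c⁻¹ (fun k => by fin_cases k <;> simp [d2, h21]) y
  have c12 : ∀ y y' : St (Fin 5) R, Commute (relabel e1 y) (relabel e2 y') :=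
    relabel_commute e1 e2 h12
  have c3A : ∀ y : St (Fin 3 ⊕ Fin 3) R,
      Commute (relabel e3 y) (relabel e1 a0 * relabel e2 a0) := fun y =>
    isTor_commute_relabel (tA1.mul tA2) e3 1 (by
      rintro (k | k) <;> fin_cases k <;> simp [d2, h12, h21, he3, Vanish_e3, Fin.natAdd]) y
  have c3B : ∀ y : St (Fin 3 ⊕ Fin 3) R,
      Commute (relabel e3 y) (relabel e1 b0 * (relabel e2 b0)⁻¹) := fun y =>
    isTor_commute_relabel (tB1.mul tB2.inv) e3 1 (by
      rintro (k | k) <;> fin_cases k <;> simp [d2, h12, h21, he3, Vanish_e3, Fin.natAdd]) y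
  have cA1B1 : Commute (relabel e1 a0) (relabel e1 b0) := hab0.map _
  have cA2B2 : Commute (relabel e2 a0) (relabel e2 b0) := hab0.map _
  have cA1B : Commute (relabel e1 a0) (relabel e1 b0 * (relabel e2 b0)⁻¹) :=
    cA1B1.mul_right (c12 a0 b0).inv_right
  have cA2B : Commute (relabel e2 a0) (relabel e1 b0 * (relabel e2 b0)⁻¹) :=
    (c12 b0 a0).symm.mul_right cA2B2.inv_right
  have cAB : Commute (relabel e1 a0 * relabel e2 a0) (relabel e1 b0 * (relabel e2 b0)⁻¹) :=
    cA1B.mul_left cA2B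
  have cAG : Commute (relabel e1 a0 * relabel e2 a0) (g3 * relabel e3 c0) :=
    (cG1 a0).mul_left (cG2 a0)
  have cBG : Commute (relabel e1 b0 * (relabel e2 b0)⁻¹) (g3 * relabel e3 c0) :=
    (cG1 b0).mul_left (cG2 b0).inv_left
  have cAg : Commute (relabel e1 a0 * relabel e2 a0) g3 := by
    have := cAG.mul_right (c3A c0).symm.inv_right
    rwa [mul_inv_cancel_right] at this
  have cBg : Commute (relabel e1 b0 * (relabel e2 b0)⁻¹) g3 := by
    have := cBG.mul_right (c3B c0).symm.inv_right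
    rwa [mul_inv_cancel_right] at this
  rw [alt3_central1 hf hV hz1 (cAB.mul_right (hz2 _).symm) cAg (cBg.mul_left (hz2 _)),
    alt3_central2 hf hV hz2 cAB cAg cBg]
  have k1 : alt3 f (relabel e1 a0 * relabel e2 a0) (relabel e1 b0 * (relabel e2 b0)⁻¹)
      (relabel e3 c0) = 0 := by
    rw [alt3_cyc]
    exact alt3_perfect hf (five_of_card (by simp)) e3 c3A c3B cAB c0
  have k2 := alt3_mul_right hf cAB cAg (c3A c0).symm cBg (c3B c0).symm
  rw [k1, add_zero] at k2
  rw [← k2, alt3_mul_left hf cA1B cA2B (cG1 a0) (cG2 a0) cBG,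
    alt3_mul_mid hf cA1B1 (c12 a0 b0).inv_right (cG1 a0) (cG1 b0) (cG2 b0).inv_left,
    alt3_mul_mid hf (c12 b0 a0).symm cA2B2.inv_right (cG2 a0) (cG1 b0) (cG2 b0).inv_left,
    alt3_inv_mid hf cA2B2 (cG2 a0) (cG2 b0), alt3_block hf h5 e1 cG1 hab0,
    alt3_block hf h5 e2 cG2 hab0,
    alt3_perfect hf h5 e1 (fun y => (c12 y b0).inv_right) cG1 (cG2 b0).inv_left a0,
    alt3_perfect hf h5 e2 (fun y => (c12 b0 y).symm) cG2 (cG1 b0) a0]
  simp

section sym
variable {F : St (Fin 10) R → St (Fin 10) R → St (Fin 10) R → M}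

theorem Vanish_five : Five (Fin 10) := five_of_card (by simp)

theorem Vanish_ab (a b : Rˣ) : Commute (relabel e4 (alpha a)) (relabel e4 (beta b)) :=
  (commute_alpha_beta a b).map _

theorem Vanish_ac (a c : Rˣ) : Commute (relabel e4 (alpha a)) (relabel e4 (gamma c)) :=
  (commute_alpha_gamma a c).map _

theorem Vanish_bc (b c : Rˣ) : Commute (relabel e4 (beta b)) (relabel e4 (gamma c)) :=
  (commute_beta_gamma b c).map _

/-- Recipe: `commute_alpha_alpha_mul`, `alt3_mul_left`, `alt3_central`, `Commute.map`. -/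
theorem sym_mul1 (hF : IsCoc3 F) (a a' b c : Rˣ) :
    sym F (a * a') b c = sym F a b c + sym F a' b c := by
  obtain ⟨z, hz, e⟩ := commute_alpha_alpha_mul a a'
  unfold sym
  rw [e, alt3_central1 hF Vanish_five hz ((Vanish_ab a b).mul_left (Vanish_ab a' b))
    ((Vanish_ac a c).mul_left (Vanish_ac a' c)) (Vanish_bc b c),
    alt3_mul_left hF (Vanish_ab a b) (Vanish_ab a' b) (Vanish_ac a c) (Vanish_ac a' c)
      (Vanish_bc b c)]

theorem sym_mul2 (hF : IsCoc3 F) (a b b' c : Rˣ) :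
    sym F a (b * b') c = sym F a b c + sym F a b' c := by
  obtain ⟨z, hz, e⟩ := commute_beta_beta_mul b b'
  unfold sym
  rw [e, alt3_central2 hF Vanish_five hz ((Vanish_ab a b).mul_right (Vanish_ab a b'))
    (Vanish_ac a c) ((Vanish_bc b c).mul_left (Vanish_bc b' c)),
    alt3_mul_mid hF (Vanish_ab a b) (Vanish_ab a b') (Vanish_ac a c) (Vanish_bc b c)
      (Vanish_bc b' c)]

theorem sym_mul3 (hF : IsCoc3 F) (a b c c' : Rˣ) :
    sym F a b (c * c') = sym F a b c + sym F a b c' := by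
  obtain ⟨z, hz, e⟩ := commute_gamma_gamma_mul c c'
  unfold sym
  rw [e, alt3_central3 hF Vanish_five hz (Vanish_ab a b)
    ((Vanish_ac a c).mul_right (Vanish_ac a c')) ((Vanish_bc b c).mul_right (Vanish_bc b c')),
    alt3_mul_right hF (Vanish_ab a b) (Vanish_ac a c) (Vanish_ac a c') (Vanish_bc b c)
      (Vanish_bc b c')]

/-- Recipe: `stein_block` with `e1 = ![0,3,4,5,6]`, `e2 = ![1,2,7,8,9]`; the diagonal data agree
with `isTor_alpha/beta/gamma e4` (`funext`, `fin_cases`, `simp [d2, e4]`). -/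
theorem sym_stein12 (hF : IsCoc3 F) (a b c : Rˣ) (hab : (a : R) + b = 1) : sym F a b c = 0 := by
  refine stein_block hF ⟨![0, 3, 4, 5, 6], by decide⟩ ⟨![1, 2, 7, 8, 9], by decide⟩ (by decide)
    (c := c) hab ?_ ?_ ?_
  · convert isTor_alpha e4 a using 1
    funext k
    fin_cases k <;> simp [d2, e4, Fin.castLE]
  · convert isTor_beta e4 b using 1
    funext k
    fin_cases k <;> simp [d2, e4, Fin.castLE]
  · convert isTor_gamma e4 c using 1
    funext k
    fin_cases k <;> simp [d2, e4, Fin.castLE]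

/-- Recipe: `alt3_swap23`, `stein_block` with `e1 = ![0,2,4,5,6]`, `e2 = ![1,3,7,8,9]`,
`g1 = alpha a`, `g2 = gamma c`, `g3 = beta b`. -/
theorem sym_stein13 (hF : IsCoc3 F) (a b c : Rˣ) (hac : (a : R) + c = 1) : sym F a b c = 0 := by
  unfold sym
  rw [alt3_swap23, neg_eq_zero]
  refine stein_block hF ⟨![0, 2, 4, 5, 6], by decide⟩ ⟨![1, 3, 7, 8, 9], by decide⟩ (by decide)
    (c := b) hac ?_ ?_ ?_
  · convert isTor_alpha e4 a using 1
    funext k
    fin_cases k <;> simp [d2, e4, Fin.castLE]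
  · convert isTor_gamma e4 c using 1
    funext k
    fin_cases k <;> simp [d2, e4, Fin.castLE]
  · convert isTor_beta e4 b using 1
    funext k
    fin_cases k <;> simp [d2, e4, Fin.castLE]

/-- Recipe: `alt3_cyc`, `stein_block` with `e1 = ![0,1,4,5,6]`, `e2 = ![2,3,7,8,9]`,
`g1 = beta b`, `g2 = gamma c`, `g3 = alpha a`. -/
theorem sym_stein23 (hF : IsCoc3 F) (a b c : Rˣ) (hbc : (b : R) + c = 1) : sym F a b c = 0 := by
  unfold sym
  rw [← alt3_cyc]
  refine stein_block hF ⟨![0, 1, 4, 5, 6], by decide⟩ ⟨![2, 3, 7, 8, 9], by decide⟩ (by decide)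
    (c := a) hbc ?_ ?_ ?_
  · convert isTor_beta e4 b using 1
    funext k
    fin_cases k <;> simp [d2, e4, Fin.castLE]
  · convert isTor_gamma e4 c using 1
    funext k
    fin_cases k <;> simp [d2, e4, Fin.castLE]
  · convert isTor_alpha e4 a using 1
    funext k
    fin_cases k <;> simp [d2, e4, Fin.castLE]

end sym

end Crest.Agent.R171
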